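import Mathlib
import Crest.Prelude.Def_FockState
import Crest.Agent.Lib.QEnt.Entropy
import Crest.Agent.Lib.QEnt.Count

/-!
Row 331 (entropy photon-number inequality): definitions.

Route.  Inputs are cut to total photon number `≤ K` (index type `Bl n K`), outputs live on `Bl n (2K)`.
`Phi` is maximised over pairs of density matrices.  At a maximiser: Euler-Lagrange equation and second
variation (`Var`), two ANOVA inequalities (`Anova`), a four-metric interpolation (`M3`, `Gap`), the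
commutation relations of the beam splitter (`BS`, `Stat`) force `t σ c - (t+1) c σ` to be small, so
`σ` is almost thermal (`Close`) and `Phi ≤ δ` (`Max`).  Limits: `Fin` (finite inputs), `Fock`.
-/

set_option autoImplicit false

noncomputable section

namespace Crest.Agent.R331

open Matrix Crest.MathPhysics.Bosonic Crest.Agent.Lib.QEnt
open scoped ComplexOrder Kronecker

/-! ### scalars -/

/-- logarithmic mean -/
def lm (x y : ℝ) : ℝ := if x = y then x else (x - y) / (Real.log x - Real.log y)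

/-- temperature of the thermal mode with mean photon number `t`; `Tm t = lm t (t+1)`. -/
def Tm (t : ℝ) : ℝ := 1 / (Real.log (t + 1) - Real.log t)

/-- the symmetric four-variable mean `∫ l w / ∫ w`, `w = 1 / ∏ (l + ξ j)`. -/
def kap (ξ : Fin 4 → ℝ) : ℝ :=
  (∫ l in Set.Ioi (0 : ℝ), l / ∏ j, (l + ξ j)) / ∫ l in Set.Ioi (0 : ℝ), 1 / ∏ j, (l + ξ j)

/-- `T` is bounded by `c` from the diagonal metric `h` to the diagonal metric `g`. -/
def Good {ι κ : Type*} [Fintype ι] [Fintype κ] (T : (κ → ℂ) →ₗ[ℂ] (ι → ℂ)) (c : ℝ)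
    (g : ι → ℝ) (h : κ → ℝ) : Prop :=
  ∀ Y : κ → ℂ, ∑ i, g i * ‖T Y i‖ ^ 2 ≤ c * ∑ k, h k * ‖Y k‖ ^ 2

/-- the confining penalty `∑_{i ≤ m} i^6`. -/
def pen (m : ℕ) : ℝ := ∑ i ∈ Finset.range (m + 1), (i : ℝ) ^ 6

/-! ### matrices over abstract finite types -/

section abstract
variable {α β γ δ : Type*}

/-- von Neumann entropy (not normalised by the trace). -/
def ent [Fintype α] [DecidableEq α] (A : Matrix α α ℂ) : ℝ := trf Real.negMulLog A

/-- matrix logarithm -/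
def mlog [Fintype α] [DecidableEq α] (A : Matrix α α ℂ) : Matrix α α ℂ := cfc Real.log A

/-- density matrix -/
def Dens [Fintype α] (ρ : Matrix α α ℂ) : Prop := ρ.PosSemidef ∧ ρ.trace = 1

/-- `‖X‖ ≤ κ` in the operator norm, as a matrix inequality. -/
def Bd [Fintype α] [DecidableEq β] (X : Matrix α β ℂ) (κ : ℝ) : Prop :=
  (((κ ^ 2 : ℝ) : ℂ) • (1 : Matrix β β ℂ) - Xᴴ * X).PosSemidef

/-- partial trace over the second factor -/
def ptr2 [Fintype β] (M : Matrix (α × β) (α × β) ℂ) : Matrix α α ℂ :=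
  Matrix.of fun i j => ∑ e, M (i, e) (j, e)

/-- the isometry with its two inputs exchanged -/
def sw (U : Matrix (γ × δ) (α × β) ℂ) : Matrix (γ × δ) (β × α) ℂ := U.submatrix id Prod.swap

/-- output on the first factor (bilinear in the inputs) -/
def out [Fintype α] [Fintype β] [Fintype δ] (U : Matrix (γ × δ) (α × β) ℂ)
    (X : Matrix α α ℂ) (Y : Matrix β β ℂ) : Matrix γ γ ℂ :=
  ptr2 (U * (X ⊗ₖ Y) * Uᴴ)

/-- Heisenberg picture: conditional expectation of an output observable on the first input. -/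
def adj [Fintype α] [Fintype β] [Fintype γ] [Fintype δ] [DecidableEq α] [DecidableEq δ]
    (U : Matrix (γ × δ) (α × β) ℂ) (ρB : Matrix β β ℂ) (Y : Matrix γ γ ℂ) : Matrix α α ℂ :=
  ptr2 (((1 : Matrix α α ℂ) ⊗ₖ ρB) * (Uᴴ * (Y ⊗ₖ (1 : Matrix δ δ ℂ)) * U))

/-- centred conditional expectation; the one on the second input is `cen (sw U) ρB ρA`. -/
def cen [Fintype α] [Fintype β] [Fintype γ] [Fintype δ] [DecidableEq α] [DecidableEq δ]
    (U : Matrix (γ × δ) (α × β) ℂ) (ρA : Matrix α α ℂ) (ρB : Matrix β β ℂ) (Y : Matrix γ γ ℂ) :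
    Matrix α α ℂ :=
  adj U ρB Y - (out U ρA ρB * Y).trace • (1 : Matrix α α ℂ)

/-- the Kubo-Mori form of `Y` at the state `V diag(p) Vᴴ`. -/
def bkm [Fintype α] (V : Matrix α α ℂ) (p : α → ℝ) (Y : Matrix α α ℂ) : ℝ :=
  ∑ k, ∑ l, lm (p k) (p l) * ‖(Vᴴ * Y * V) k l‖ ^ 2

/-- score `T [a, log ρ] + a`. -/
def sc [Fintype α] [DecidableEq α] (ρ : Matrix α α ℂ) (t : ℝ) (a : Matrix α α ℂ) : Matrix α α ℂ :=
  (Tm t : ℂ) • (a * mlog ρ - mlog ρ * a) + a

/-- thermal defect `t ρ a - (t+1) a ρ`. -/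
def df [Fintype α] (ρ : Matrix α α ℂ) (t : ℝ) (a : Matrix α α ℂ) : Matrix α α ℂ :=
  (t : ℂ) • (ρ * a) - ((t + 1 : ℝ) : ℂ) • (a * ρ)

/-- relative Fisher information -/
def fi [Fintype α] [DecidableEq α] (ρ : Matrix α α ℂ) (t : ℝ) (a : Matrix α α ℂ) : ℝ :=
  -((df ρ t a)ᴴ * sc ρ t a).trace.re

/-- the thermal defect is at most `√w` in the dual of the symmetric metric. -/
def Small [Fintype α] (σ : Matrix α α ℂ) (t : ℝ) (c : Matrix α α ℂ) (w : ℝ) : Prop :=
  ∀ G : Matrix α α ℂ, ‖(Gᴴ * df σ t c).trace‖ ^ 2 ≤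
    w * ((σ * (Gᴴ * G)).trace.re + (σ * (G * Gᴴ)).trace.re)

/-- the quantity bounded below in `Gap` and above in `Stat`; `ZA, ZB` are the images of the score of
the output. -/
def rhs [Fintype α] [Fintype β] [Fintype γ] [DecidableEq α] [DecidableEq β] [DecidableEq γ]
    (ρA : Matrix α α ℂ) (ρB : Matrix β β ℂ) (σ : Matrix γ γ ℂ) (tA tB tC d lA lB : ℝ)
    (a : Matrix α α ℂ) (b : Matrix β β ℂ) (c : Matrix γ γ ℂ)
    (ZA : Matrix α α ℂ) (ZB : Matrix β β ℂ) : ℝ :=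
  (1 + d) * fi σ tC c + (2 * lA * ((df ρA tA a)ᴴ * ZA).trace.re + lA ^ 2 * fi ρA tA a) +
    (2 * lB * ((df ρB tB b)ᴴ * ZB).trace.re + lB ^ 2 * fi ρB tB b)

/-- One mode of a truncated beam splitter: `U` is an isometry, intertwines the lowering operators
exactly and the raising operators below the top layers `QA`, `QB`. -/
structure BS [Fintype α] [Fintype β] [Fintype γ] [Fintype δ] [DecidableEq α] [DecidableEq β]
    [DecidableEq γ] [DecidableEq δ] (U : Matrix (γ × δ) (α × β) ℂ) (a QA : Matrix α α ℂ)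
    (b QB : Matrix β β ℂ) (c : Matrix γ γ ℂ) (c' : Matrix δ δ ℂ) (rA rB : ℝ) : Prop where
  iso : Uᴴ * U = 1
  sq : rA ^ 2 + rB ^ 2 = 1
  lowA : U * (a ⊗ₖ (1 : Matrix β β ℂ)) =
    ((rA : ℂ) • (c ⊗ₖ (1 : Matrix δ δ ℂ)) - (rB : ℂ) • ((1 : Matrix γ γ ℂ) ⊗ₖ c')) * U
  lowB : U * ((1 : Matrix α α ℂ) ⊗ₖ b) =
    ((rB : ℂ) • (c ⊗ₖ (1 : Matrix δ δ ℂ)) + (rA : ℂ) • ((1 : Matrix γ γ ℂ) ⊗ₖ c')) * U
  upA : ((rA : ℂ) • (c ⊗ₖ (1 : Matrix δ δ ℂ)) - (rB : ℂ) • ((1 : Matrix γ γ ℂ) ⊗ₖ c'))ᴴ * U *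
    ((1 - QA) ⊗ₖ (1 : Matrix β β ℂ)) = U * (aᴴ ⊗ₖ (1 : Matrix β β ℂ))
  upB : ((rB : ℂ) • (c ⊗ₖ (1 : Matrix δ δ ℂ)) + (rA : ℂ) • ((1 : Matrix γ γ ℂ) ⊗ₖ c'))ᴴ * U *
    ((1 : Matrix α α ℂ) ⊗ₖ (1 - QB)) = U * ((1 : Matrix α α ℂ) ⊗ₖ bᴴ)
  QAh : QAᴴ = QA
  QAi : QA * QA = QA
  QAa : QA * a = 0
  QBh : QBᴴ = QB
  QBi : QB * QB = QB
  QBb : QB * b = 0

end abstract

/-! ### truncated Fock spaces -/

/-- total photon number -/
def tot {n : ℕ} (k : Occ n) : ℕ := ∑ j, k j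

/-- occupations of total photon number at most `K` -/
abbrev Bl (n K : ℕ) : Type := {k : Occ n // tot k ≤ K}

instance (n K : ℕ) : Fintype (Bl n K) :=
  Fintype.subtype ((Fintype.piFinset fun _ : Fin n => Finset.range (K + 1)).filter fun k => tot k ≤ K)
    (by
      intro k
      simp only [Finset.mem_filter, Fintype.mem_piFinset, Finset.mem_range, and_iff_right_iff_imp]
      intro hk j
      have : k j ≤ tot k := Finset.single_le_sum (f := k) (fun _ _ => Nat.zero_le _) (Finset.mem_univ j)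
      omega)

/-- square matrices on `Bl n K` -/
abbrev Mt (n K : ℕ) : Type := Matrix (Bl n K) (Bl n K) ℂ

/-- truncated lowering operator of mode `j` -/
def low (n K : ℕ) (j : Fin n) : Mt n K :=
  Matrix.of fun k l => if l.1 = k.1 + Pi.single j 1 then ((Real.sqrt (l.1 j) : ℝ) : ℂ) else 0

/-- function of the total photon number -/
def dN (n K : ℕ) (f : ℕ → ℝ) : Mt n K := diagonal fun k => ((f (tot k.1) : ℝ) : ℂ)

/-- projection on the top layer -/
def topQ (n K : ℕ) : Mt n K := dN n K fun m => if m = K then 1 else 0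

/-- expectation of a function of the total photon number -/
def ev {n K : ℕ} (f : ℕ → ℝ) (ρ : Mt n K) : ℝ := ∑ k, f (tot k.1) * (ρ k k).re

/-- energy -/
def en {n K : ℕ} (ρ : Mt n K) : ℝ := ev (fun m => (m : ℝ)) ρ

/-- the truncated beam splitter -/
def bsU (η : ℝ) (n K : ℕ) : Matrix (Bl n (2 * K) × Bl n (2 * K)) (Bl n K × Bl n K) ℂ :=
  Matrix.of fun pq ab => ((ampOcc η ab.1.1 ab.2.1 pq.1.1 pq.2.1 : ℝ) : ℂ)

/-- extension by zero / restriction between cut-offs -/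
def rs {n K : ℕ} (L : ℕ) (ρ : Mt n K) : Mt n L :=
  Matrix.of fun k l =>
    if h : tot k.1 ≤ K ∧ tot l.1 ≤ K then ρ ⟨k.1, h.1⟩ ⟨l.1, h.2⟩ else 0

/-- the block of a state on the photon numbers `≤ K` -/
def cut {n : ℕ} (ρ : FockState n) (K : ℕ) : Mt n K := Matrix.of fun k l => entry ρ.op k.1 l.1

/-- smoothed output -/
def sig (η θ : ℝ) {n K : ℕ} (ρA ρB : Mt n K) : Mt n (2 * K) :=
  out (bsU η n K) ρA ρB + (θ : ℂ) • (1 : Mt n (2 * K))

/-- the functional that is maximised -/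
def Phi (η d ε θ tA tB : ℝ) {n K : ℕ} (ρA ρB : Mt n K) : ℝ :=
  (1 + d) * (η * Tm tA * (ent ρA - n * gBose tA) + (1 - η) * Tm tB * (ent ρB - n * gBose tB))
    - Tm (η * tA + (1 - η) * tB) * (ent (sig η θ ρA ρB) - n * gBose (η * tA + (1 - η) * tB))
    - d * (η * (en ρA - n * tA) + (1 - η) * (en ρB - n * tB))
    - ε * (η * ev pen ρA + (1 - η) * ev pen ρB)

end Crest.Agent.R331

end
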