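import Mathlib
import Crest.Prelude.Def_QState
import Crest.Agent.Lib.QEnt.Entropy
import Crest.Agent.R331.Defs

/-!
# Row 331: ANOVA inequality for a product state and the Kadison–Schwarz step

For densities `rA`, `rB`, `ω = rA ⊗ rB`, and any operator `Z` on `A × B` with mean `m = tr ω Z`,
`EA rB Z = tr_B ((1 ⊗ rB) Z)`, `EB rA Z = tr_A ((rA ⊗ 1) Z)`:
`|m|² + tr rA Xᴴ X + tr rB Yᴴ Y ≤ tr ω Zᴴ Z` with `X = EA Z - m`, `Y = EB Z - m`
(`anova_L`), and the same with `X Xᴴ` (`anova_R`).  With an isometry `U : A × B → C × D`,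
`Phi U Y = Uᴴ (Y ⊗ 1) U` satisfies `tr ω (Phi Y)ᴴ (Phi Y) ≤ tr ω Phi (Yᴴ Y)` (`ks_L`, `ks_R`).
-/

set_option autoImplicit false
set_option linter.unusedSectionVars false
set_option linter.unusedSimpArgs false

namespace Crest.Agent.R331.Anova

open Matrix Crest.Quantum
open scoped ComplexOrder Kronecker

variable {A B C D : Type*} [Fintype A] [Fintype B] [Fintype C] [Fintype D]
  [DecidableEq A] [DecidableEq B] [DecidableEq C] [DecidableEq D]

/-- Conditional expectation onto the first factor: `tr_B ((1 ⊗ rB) Z)`. -/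
noncomputable def EA (rB : Matrix B B ℂ) (Z : Matrix (A × B) (A × B) ℂ) : Matrix A A ℂ :=
  Matrix.of fun a a' => ∑ b, ∑ b', rB b' b * Z (a, b) (a', b')

/-- Conditional expectation onto the second factor: `tr_A ((rA ⊗ 1) Z)`. -/
noncomputable def EB (rA : Matrix A A ℂ) (Z : Matrix (A × B) (A × B) ℂ) : Matrix B B ℂ :=
  Matrix.of fun b b' => ∑ a, ∑ a', rA a' a * Z (a, b) (a', b')

/-- Duality: `tr (X ⊗ rB) Z = tr X (EA rB Z)`. -/
theorem trace_kron_EA (X : Matrix A A ℂ) (rB : Matrix B B ℂ) (Z : Matrix (A × B) (A × B) ℂ) :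
    ((X ⊗ₖ rB) * Z).trace = (X * EA rB Z).trace := by
  simp only [Matrix.trace, Matrix.diag_apply, Matrix.mul_apply, EA, Matrix.of_apply,
    kroneckerMap_apply, Fintype.sum_prod_type, Finset.mul_sum]
  refine Finset.sum_congr rfl fun a _ => ?_
  rw [Finset.sum_comm]
  refine Finset.sum_congr rfl fun a' _ => ?_
  rw [Finset.sum_comm]
  refine Finset.sum_congr rfl fun b _ => Finset.sum_congr rfl fun b' _ => ?_
  ring

/-- Duality: `tr (rA ⊗ Y) Z = tr Y (EB rA Z)`. -/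
theorem trace_kron_EB (rA : Matrix A A ℂ) (Y : Matrix B B ℂ) (Z : Matrix (A × B) (A × B) ℂ) :
    ((rA ⊗ₖ Y) * Z).trace = (Y * EB rA Z).trace := by
  simp only [Matrix.trace, Matrix.diag_apply, Matrix.mul_apply, EB, Matrix.of_apply,
    kroneckerMap_apply, Fintype.sum_prod_type, Finset.mul_sum]
  rw [Finset.sum_comm]
  refine Finset.sum_congr rfl fun b _ => ?_
  calc ∑ a, ∑ a', ∑ b', rA a a' * Y b b' * Z (a', b') (a, b)
      = ∑ a, ∑ b', ∑ a', rA a a' * Y b b' * Z (a', b') (a, b) :=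
        Finset.sum_congr rfl fun a _ => Finset.sum_comm
    _ = ∑ b', ∑ a, ∑ a', rA a a' * Y b b' * Z (a', b') (a, b) := Finset.sum_comm
    _ = ∑ b', ∑ a', ∑ a, rA a a' * Y b b' * Z (a', b') (a, b) :=
        Finset.sum_congr rfl fun b' _ => Finset.sum_comm
    _ = _ := by
        refine Finset.sum_congr rfl fun b' _ => Finset.sum_congr rfl fun a' _ =>
          Finset.sum_congr rfl fun a _ => ?_
        ring

theorem EA_conjTranspose {rB : Matrix B B ℂ} (h : rB.IsHermitian)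
    (Z : Matrix (A × B) (A × B) ℂ) : EA rB Zᴴ = (EA rB Z)ᴴ := by
  ext a a'
  simp only [EA, Matrix.of_apply, conjTranspose_apply, star_sum, star_mul']
  rw [Finset.sum_comm]
  refine Finset.sum_congr rfl fun b _ => Finset.sum_congr rfl fun b' _ => ?_
  rw [h.apply b b']

theorem EB_conjTranspose {rA : Matrix A A ℂ} (h : rA.IsHermitian)
    (Z : Matrix (A × B) (A × B) ℂ) : EB rA Zᴴ = (EB rA Z)ᴴ := by
  ext a a'
  simp only [EB, Matrix.of_apply, conjTranspose_apply, star_sum, star_mul']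
  rw [Finset.sum_comm]
  refine Finset.sum_congr rfl fun b _ => Finset.sum_congr rfl fun b' _ => ?_
  rw [h.apply b b']

theorem trace_mul_psd_re_nonneg {n : Type*} [Fintype n] [DecidableEq n] {P Q : Matrix n n ℂ}
    (hP : P.PosSemidef) (hQ : Q.PosSemidef) : 0 ≤ (P * Q).trace.re := by
  obtain ⟨v, rfl⟩ := Crest.Agent.Lib.QEnt.exists_sqrt hP
  rw [Matrix.mul_assoc, trace_mul_comm]
  have h := (hQ.conjTranspose_mul_mul_same v).trace_nonneg
  exact (Complex.nonneg_iff.1 h).1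

theorem trace_mul_sq_re_nonneg {n m : Type*} [Fintype n] [DecidableEq n] [Fintype m]
    {P : Matrix n n ℂ} (hP : P.PosSemidef) (W : Matrix m n ℂ) :
    0 ≤ (P * (Wᴴ * W)).trace.re :=
  trace_mul_psd_re_nonneg hP (posSemidef_conjTranspose_mul_self W)

/-- ANOVA, `L` version. -/
theorem anova_L {rA : Matrix A A ℂ} {rB : Matrix B B ℂ} (hA : IsDensity rA) (hB : IsDensity rB)
    (Z : Matrix (A × B) (A × B) ℂ) (m : ℂ) (hm : m = ((rA ⊗ₖ rB) * Z).trace) :
    Complex.normSq m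
      + (rA * ((EA rB Z - m • 1)ᴴ * (EA rB Z - m • 1))).trace.re
      + (rB * ((EB rA Z - m • 1)ᴴ * (EB rA Z - m • 1))).trace.re
      ≤ ((rA ⊗ₖ rB) * (Zᴴ * Z)).trace.re := by
  set X : Matrix A A ℂ := EA rB Z - m • 1 with hX
  set Y : Matrix B B ℂ := EB rA Z - m • 1 with hY
  set w : Matrix (A × B) (A × B) ℂ := rA ⊗ₖ rB with hw
  have hwp : w.PosSemidef := hA.1.kronecker hB.1
  have hwH : wᴴ = w := hwp.1
  have hmA : (rA * EA rB Z).trace = m := by rw [hm, hw, trace_kron_EA]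
  have hmB : (rB * EB rA Z).trace = m := by rw [hm, hw, trace_kron_EB]
  have hX0 : (rA * X).trace = 0 := by
    rw [hX, Matrix.mul_sub, trace_sub, hmA]; simp [hA.2]
  have hY0 : (rB * Y).trace = 0 := by
    rw [hY, Matrix.mul_sub, trace_sub, hmB]; simp [hB.2]
  have hX0' : (rA * Xᴴ).trace = 0 := by
    have : (rA * Xᴴ) = (X * rA)ᴴ := by rw [conjTranspose_mul, hA.1.1]
    rw [this, trace_conjTranspose, trace_mul_comm, hX0]; simp
  have hY0' : (rB * Yᴴ).trace = 0 := by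
    have : (rB * Yᴴ) = (Y * rB)ᴴ := by rw [conjTranspose_mul, hB.1.1]
    rw [this, trace_conjTranspose, trace_mul_comm, hY0]; simp
  set P : Matrix (A × B) (A × B) ℂ :=
    m • 1 + X ⊗ₖ (1 : Matrix B B ℂ) + (1 : Matrix A A ℂ) ⊗ₖ Y with hP
  have hPH : Pᴴ = star m • 1 + Xᴴ ⊗ₖ (1 : Matrix B B ℂ) + (1 : Matrix A A ℂ) ⊗ₖ Yᴴ := by
    rw [hP]
    simp only [conjTranspose_add, conjTranspose_smul, conjTranspose_one, conjTranspose_kronecker]
  have hwP : w * Pᴴ = star m • w + (rA * Xᴴ) ⊗ₖ rB + rA ⊗ₖ (rB * Yᴴ) := by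
    rw [hPH, hw]
    simp only [Matrix.mul_add, Matrix.mul_smul, Matrix.mul_one, ← mul_kronecker_mul]
  set v : ℂ := star m * m + (rA * (Xᴴ * X)).trace + (rB * (Yᴴ * Y)).trace with hv
  have h1 : (w * (Pᴴ * Z)).trace = v := by
    rw [← Matrix.mul_assoc, hwP, Matrix.add_mul, Matrix.add_mul, trace_add, trace_add,
      Matrix.smul_mul, trace_smul, ← hm, trace_kron_EA, trace_kron_EB]
    have e1 : EA rB Z = X + m • 1 := by rw [hX]; simp
    have e2 : EB rA Z = Y + m • 1 := by rw [hY]; simp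
    rw [e1, e2, hv]
    simp only [Matrix.mul_add, trace_add, Matrix.mul_smul, Matrix.mul_one, trace_smul, hX0', hY0',
      Matrix.mul_assoc, smul_eq_mul, mul_zero, add_zero]
  have h2 : (w * (Pᴴ * P)).trace = v := by
    rw [← Matrix.mul_assoc, hwP]
    conv_lhs => rw [hP]
    simp only [Matrix.add_mul, Matrix.mul_add, trace_add, Matrix.smul_mul, Matrix.mul_smul,
      Matrix.mul_one, trace_smul, hw, ← mul_kronecker_mul, trace_kronecker, hX0, hY0, hX0', hY0',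
      hA.2, hB.2, smul_eq_mul, mul_zero, zero_mul, add_zero, mul_one, one_mul, zero_add,
      Matrix.mul_assoc, hv]
    ring
  have h3 : (w * (Zᴴ * P)).trace = star v := by
    rw [← h1, ← trace_conjTranspose, conjTranspose_mul, conjTranspose_mul,
      conjTranspose_conjTranspose, hwH, trace_mul_comm]
  have h0 := trace_mul_sq_re_nonneg hwp (Z - P)
  have e : (w * ((Z - P)ᴴ * (Z - P))).trace = (w * (Zᴴ * Z)).trace - star v - v + v := by
    rw [conjTranspose_sub]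
    simp only [Matrix.sub_mul, Matrix.mul_sub, trace_sub]
    rw [h1, h2, h3]; ring
  rw [e] at h0
  have hvre : v.re = Complex.normSq m + (rA * (Xᴴ * X)).trace.re + (rB * (Yᴴ * Y)).trace.re := by
    rw [hv]
    simp only [Complex.add_re, Complex.star_def]
    rw [← Complex.normSq_eq_conj_mul_self, Complex.ofReal_re]
  simp only [Complex.add_re, Complex.sub_re, Complex.star_def, Complex.conj_re] at h0
  linarith

/-- ANOVA, `R` version. -/
theorem anova_R {rA : Matrix A A ℂ} {rB : Matrix B B ℂ} (hA : IsDensity rA) (hB : IsDensity rB)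
    (Z : Matrix (A × B) (A × B) ℂ) (m : ℂ) (hm : m = ((rA ⊗ₖ rB) * Z).trace) :
    Complex.normSq m
      + (rA * ((EA rB Z - m • 1) * (EA rB Z - m • 1)ᴴ)).trace.re
      + (rB * ((EB rA Z - m • 1) * (EB rA Z - m • 1)ᴴ)).trace.re
      ≤ ((rA ⊗ₖ rB) * (Z * Zᴴ)).trace.re := by
  have hwH : (rA ⊗ₖ rB)ᴴ = rA ⊗ₖ rB := (hA.1.kronecker hB.1).1
  have hm' : star m = ((rA ⊗ₖ rB) * Zᴴ).trace := by
    rw [hm, ← trace_conjTranspose, conjTranspose_mul, hwH, trace_mul_comm]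
  have h := anova_L hA hB Zᴴ (star m) hm'
  rw [EA_conjTranspose hB.1.1, EB_conjTranspose hA.1.1] at h
  have e1 : (EA rB Z)ᴴ - star m • (1 : Matrix A A ℂ) = (EA rB Z - m • 1)ᴴ := by
    simp [conjTranspose_sub, conjTranspose_smul]
  have e2 : (EB rA Z)ᴴ - star m • (1 : Matrix B B ℂ) = (EB rA Z - m • 1)ᴴ := by
    simp [conjTranspose_sub, conjTranspose_smul]
  rw [e1, e2] at h
  simp only [conjTranspose_conjTranspose, Complex.star_def, Complex.normSq_conj] at h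
  exact h

/-- Kadison–Schwarz for `Z ↦ Uᴴ Z U` with `U` an isometry, tested against a PSD `w`. -/
theorem ks_L {P Q : Type*} [Fintype P] [Fintype Q] [DecidableEq P] [DecidableEq Q]
    {U : Matrix Q P ℂ} (hU : Uᴴ * U = 1) {w : Matrix P P ℂ} (hw : w.PosSemidef)
    (Z : Matrix Q Q ℂ) :
    (w * ((Uᴴ * Z * U)ᴴ * (Uᴴ * Z * U))).trace.re ≤ (w * (Uᴴ * (Zᴴ * Z) * U)).trace.re := by
  have h0 := trace_mul_sq_re_nonneg hw (Z * U - U * (Uᴴ * Z * U))
  have e : (Z * U - U * (Uᴴ * Z * U))ᴴ * (Z * U - U * (Uᴴ * Z * U))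
      = Uᴴ * (Zᴴ * Z) * U - (Uᴴ * Z * U)ᴴ * (Uᴴ * Z * U) := by
    simp only [conjTranspose_sub, conjTranspose_mul, conjTranspose_conjTranspose, Matrix.sub_mul,
      Matrix.mul_sub, Matrix.mul_assoc]
    have : Uᴴ * (U * (Uᴴ * (Z * U))) = Uᴴ * (Z * U) := by
      rw [← Matrix.mul_assoc, hU, Matrix.one_mul]
    rw [this]; abel
  rw [e, Matrix.mul_sub, trace_sub, Complex.sub_re] at h0
  linarith

theorem ks_R {P Q : Type*} [Fintype P] [Fintype Q] [DecidableEq P] [DecidableEq Q]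
    {U : Matrix Q P ℂ} (hU : Uᴴ * U = 1) {w : Matrix P P ℂ} (hw : w.PosSemidef)
    (Z : Matrix Q Q ℂ) :
    (w * ((Uᴴ * Z * U) * (Uᴴ * Z * U)ᴴ)).trace.re ≤ (w * (Uᴴ * (Z * Zᴴ) * U)).trace.re := by
  have h := ks_L hU hw Zᴴ
  have e : (Uᴴ * Zᴴ * U) = (Uᴴ * Z * U)ᴴ := by
    simp only [conjTranspose_mul, conjTranspose_conjTranspose, Matrix.mul_assoc]
  rw [e] at h
  simpa only [conjTranspose_conjTranspose] using h

/-! ### the same in terms of `out`, `adj`, `cen` -/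

theorem trace_ptr2_mul (M : Matrix (C × D) (C × D) ℂ) (Y : Matrix C C ℂ) :
    (ptr2 M * Y).trace = (M * (Y ⊗ₖ (1 : Matrix D D ℂ))).trace := by
  simp only [Matrix.trace, Matrix.diag_apply, Matrix.mul_apply, ptr2, Matrix.of_apply,
    kroneckerMap_apply, Fintype.sum_prod_type, Finset.sum_mul, Matrix.one_apply, mul_ite, mul_one,
    mul_zero, Finset.sum_ite_eq', Finset.mem_univ, if_true]
  exact Finset.sum_congr rfl fun c _ => Finset.sum_comm

theorem trace_out_mul (U : Matrix (C × D) (A × B) ℂ) (X : Matrix A A ℂ) (Z : Matrix B B ℂ)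
    (Y : Matrix C C ℂ) :
    (out U X Z * Y).trace = ((X ⊗ₖ Z) * (Uᴴ * (Y ⊗ₖ (1 : Matrix D D ℂ)) * U)).trace := by
  unfold out
  rw [trace_ptr2_mul, Matrix.mul_assoc, Matrix.mul_assoc, trace_mul_comm]
  simp only [Matrix.mul_assoc]

theorem adj_eq_EA (U : Matrix (C × D) (A × B) ℂ) (ρB : Matrix B B ℂ) (Y : Matrix C C ℂ) :
    adj U ρB Y = EA ρB (Uᴴ * (Y ⊗ₖ (1 : Matrix D D ℂ)) * U) := by
  unfold adj
  generalize Uᴴ * (Y ⊗ₖ (1 : Matrix D D ℂ)) * U = Z
  ext a a'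
  simp only [ptr2, EA, Matrix.of_apply, Matrix.mul_apply, kroneckerMap_apply,
    Fintype.sum_prod_type, Matrix.one_apply, ite_mul, one_mul, zero_mul]
  rw [Finset.sum_comm]
  simp only [Finset.sum_ite_irrel, Finset.sum_const_zero, Finset.sum_ite_eq, Finset.mem_univ,
    if_true]
  exact Finset.sum_comm

theorem sw_conj (U : Matrix (C × D) (A × B) ℂ) (Z : Matrix (C × D) (C × D) ℂ) :
    (sw U)ᴴ * Z * sw U = (Uᴴ * Z * U).submatrix Prod.swap Prod.swap := by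
  ext x y
  simp only [sw, Matrix.mul_apply, conjTranspose_apply, submatrix_apply, id]

theorem adj_sw_eq_EB (U : Matrix (C × D) (A × B) ℂ) (ρA : Matrix A A ℂ) (Y : Matrix C C ℂ) :
    adj (sw U) ρA Y = EB ρA (Uᴴ * (Y ⊗ₖ (1 : Matrix D D ℂ)) * U) := by
  rw [adj_eq_EA, sw_conj]
  rfl

theorem out_sw (U : Matrix (C × D) (A × B) ℂ) (X : Matrix A A ℂ) (Z : Matrix B B ℂ) :
    out (sw U) Z X = out U X Z := by
  unfold out
  congr 1
  ext x y
  simp only [sw, Matrix.mul_apply, conjTranspose_apply, submatrix_apply, id, kroneckerMap_apply,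
    Fintype.sum_prod_type, Prod.swap_prod_mk]
  rw [Finset.sum_comm]
  refine Finset.sum_congr rfl fun a _ => Finset.sum_congr rfl fun b _ => ?_
  rw [Finset.sum_comm]
  congr 1
  refine Finset.sum_congr rfl fun a' _ => Finset.sum_congr rfl fun b' _ => ?_
  ring

theorem sw_iso {U : Matrix (C × D) (A × B) ℂ} (hU : Uᴴ * U = 1) : (sw U)ᴴ * sw U = 1 := by
  have := sw_conj U 1
  rw [Matrix.mul_one, Matrix.mul_one, hU] at this
  rw [this]
  exact submatrix_one_equiv (Equiv.prodComm B A)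

/-- ANOVA + Kadison–Schwarz, `L` version, for the centred conditional expectations. -/
theorem cen_L {U : Matrix (C × D) (A × B) ℂ} (hU : Uᴴ * U = 1) {ρA : Matrix A A ℂ}
    {ρB : Matrix B B ℂ} (hA : Dens ρA) (hB : Dens ρB) (Y : Matrix C C ℂ) :
    Complex.normSq (out U ρA ρB * Y).trace
      + (ρA * ((cen U ρA ρB Y)ᴴ * cen U ρA ρB Y)).trace.re
      + (ρB * ((cen (sw U) ρB ρA Y)ᴴ * cen (sw U) ρB ρA Y)).trace.re
      ≤ (out U ρA ρB * (Yᴴ * Y)).trace.re := by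
  have h1 := anova_L (rA := ρA) (rB := ρB) hA hB (Uᴴ * (Y ⊗ₖ (1 : Matrix D D ℂ)) * U) _
    (trace_out_mul U ρA ρB Y)
  have h2 := ks_L hU (hA.1.kronecker hB.1) (Y ⊗ₖ (1 : Matrix D D ℂ))
  unfold cen
  rw [out_sw, adj_eq_EA, adj_sw_eq_EB, trace_out_mul U ρA ρB (Yᴴ * Y)]
  have e : (Y ⊗ₖ (1 : Matrix D D ℂ))ᴴ * (Y ⊗ₖ (1 : Matrix D D ℂ)) = (Yᴴ * Y) ⊗ₖ 1 := by
    rw [conjTranspose_kronecker, ← mul_kronecker_mul]; simp
  rw [e] at h2
  exact h1.trans h2

/-- ANOVA + Kadison–Schwarz, `R` version. -/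
theorem cen_R {U : Matrix (C × D) (A × B) ℂ} (hU : Uᴴ * U = 1) {ρA : Matrix A A ℂ}
    {ρB : Matrix B B ℂ} (hA : Dens ρA) (hB : Dens ρB) (Y : Matrix C C ℂ) :
    Complex.normSq (out U ρA ρB * Y).trace
      + (ρA * (cen U ρA ρB Y * (cen U ρA ρB Y)ᴴ)).trace.re
      + (ρB * (cen (sw U) ρB ρA Y * (cen (sw U) ρB ρA Y)ᴴ)).trace.re
      ≤ (out U ρA ρB * (Y * Yᴴ)).trace.re := by
  have h1 := anova_R (rA := ρA) (rB := ρB) hA hB (Uᴴ * (Y ⊗ₖ (1 : Matrix D D ℂ)) * U) _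
    (trace_out_mul U ρA ρB Y)
  have h2 := ks_R hU (hA.1.kronecker hB.1) (Y ⊗ₖ (1 : Matrix D D ℂ))
  unfold cen
  rw [out_sw, adj_eq_EA, adj_sw_eq_EB, trace_out_mul U ρA ρB (Y * Yᴴ)]
  have e : (Y ⊗ₖ (1 : Matrix D D ℂ)) * (Y ⊗ₖ (1 : Matrix D D ℂ))ᴴ = (Y * Yᴴ) ⊗ₖ 1 := by
    rw [conjTranspose_kronecker, ← mul_kronecker_mul]; simp
  rw [e] at h2
  exact h1.trans h2

end Crest.Agent.R331.Anova
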