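import Mathlib
import Crest.Prelude.Def_Bosonic
import Crest.Prelude.Def_FockState

/-!
# Row 331: the finite-dimensional linear form of the entropy photon-number inequality

`S_FD` is the interface between the inner blocks (variational argument on truncated Fock spaces)
and the outer block `F` (`S_FD → S0514`).
-/

set_option autoImplicit false

namespace Crest.Agent.R331

open Crest.MathPhysics.Bosonic Crest.Quantum

/-- The temperature `T(t) = 1 / log (1 + 1/t)` of the thermal mode with mean photon number `t`. -/
noncomputable def Tmp (t : ℝ) : ℝ := 1 / Real.log (1 + 1 / t)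

/-- The box-truncated index set: at most `K` photons in each of the `n` modes. -/
abbrev Box (n K : ℕ) : Type := Fin n → Fin (K + 1)

/-- Finite-dimensional linear form of the entropy photon-number inequality. -/
def S_FD : Prop :=
  ∀ (n K : ℕ) (η tA tB : ℝ), 0 < η → η < 1 → 0 < tA → 0 < tB →
    ∀ ρA ρB : Matrix (Box n K) (Box n K) ℂ, IsDensity ρA → IsDensity ρB →
      η * Tmp tA * (vnEntropy ρA - n * gBose tA) + (1 - η) * Tmp tB * (vnEntropy ρB - n * gBose tB)
        ≤ Tmp (η * tA + (1 - η) * tB) *
          (vnEntropy (bsOutput η ρA ρB) - n * gBose (η * tA + (1 - η) * tB))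

end Crest.Agent.R331
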