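import Mathlib

/-! # Row 331, block M3 (a): the integrals `J x b a = ∫_0^∞ l^a ∏ (l + x j)^(-b j)` and their contiguous relations -/

set_option autoImplicit false
noncomputable section
open MeasureTheory Set Filter Topology

namespace Crest.Agent.R331

def w3 (x : Fin 4 → ℝ) (b : Fin 4 → ℕ) (a : ℕ) (l : ℝ) : ℝ := l ^ a * ∏ j, ((l + x j)⁻¹) ^ b j
def J3 (x : Fin 4 → ℝ) (b : Fin 4 → ℕ) (a : ℕ) : ℝ := ∫ l in Ioi (0 : ℝ), w3 x b a l
def up3 (b : Fin 4 → ℕ) (j : Fin 4) : Fin 4 → ℕ := b + Pi.single j 1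

variable {x : Fin 4 → ℝ} {b : Fin 4 → ℕ} {a : ℕ}

theorem sum_up3 (b : Fin 4 → ℕ) (j : Fin 4) : ∑ i, up3 b j i = ∑ i, b i + 1 := by
  simp [up3, Finset.sum_add_distrib]

theorem w3_up (x : Fin 4 → ℝ) (b : Fin 4 → ℕ) (a : ℕ) (j : Fin 4) (l : ℝ) :
    w3 x (up3 b j) a l = w3 x b a l * (l + x j)⁻¹ := by
  simp only [w3, up3, Pi.add_apply, pow_add, Finset.prod_mul_distrib, mul_assoc]
  congr 2
  rw [Finset.prod_eq_single j]
  · simp
  · intro i _ hi
    simp [hi]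
  · simp

theorem w3_succ (x : Fin 4 → ℝ) (b : Fin 4 → ℕ) (a : ℕ) (l : ℝ) : w3 x b (a + 1) l = l * w3 x b a l := by
  simp only [w3]; ring

theorem w3_nonneg (hx : ∀ j, 0 < x j) {l : ℝ} (hl : 0 ≤ l) : 0 ≤ w3 x b a l :=
  mul_nonneg (pow_nonneg hl _) (Finset.prod_nonneg fun j _ => by have := hx j; positivity)

theorem w3_pos (hx : ∀ j, 0 < x j) {l : ℝ} (hl : 0 < l) : 0 < w3 x b a l :=
  mul_pos (pow_pos hl _) (Finset.prod_pos fun j _ => by have := hx j; positivity)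

theorem exists_min4 (hx : ∀ j, 0 < x j) : ∃ m : ℝ, 0 < m ∧ ∀ j, m ≤ x j := by
  obtain ⟨j, hj⟩ := Finite.exists_min x
  exact ⟨x j, hx j, hj⟩

theorem w3_le {m : ℝ} (hm : 0 < m) (hx : ∀ j, m ≤ x j) {r : ℕ} (h : a + r = ∑ j, b j) {l : ℝ} (hl : 0 ≤ l) :
    w3 x b a l ≤ ((l + m)⁻¹) ^ r := by
  have h0 : 0 < l + m := by linarith
  have h1 : ∏ j, ((l + x j)⁻¹) ^ b j ≤ ∏ j, ((l + m)⁻¹) ^ b j :=
    Finset.prod_le_prod (fun j _ => by have := hx j; have : 0 < l + x j := by linarith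
                                       positivity)
      fun j _ => pow_le_pow_left₀ (by have := hx j; have : 0 < l + x j := by linarith
                                      positivity) (inv_anti₀ h0 (by linarith [hx j])) _
  rw [Finset.prod_pow_eq_pow_sum, ← h, pow_add] at h1
  calc w3 x b a l ≤ (l + m) ^ a * ((l + m)⁻¹ ^ a * (l + m)⁻¹ ^ r) :=
        mul_le_mul (pow_le_pow_left₀ hl (by linarith) _) h1
          (Finset.prod_nonneg fun j _ => by have := hx j; have : 0 < l + x j := by linarith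
                                            positivity) (by positivity)
    _ = _ := by rw [← mul_assoc, ← mul_pow, mul_inv_cancel₀ h0.ne', one_pow, one_mul]

theorem w3_cont (hx : ∀ j, 0 < x j) : ContinuousOn (w3 x b a) (Ioi 0) := by
  refine (continuousOn_id.pow _).mul (continuousOn_finsetProd _ fun j _ => ContinuousOn.pow ?_ _)
  refine (continuousOn_id.add continuousOn_const).inv₀ fun l hl => ?_
  have := hx j
  have : 0 < l := hl
  exact (add_pos this (hx j)).ne'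

theorem w3_int (hx : ∀ j, 0 < x j) (h : a + 2 ≤ ∑ j, b j) : IntegrableOn (w3 x b a) (Ioi 0) := by
  obtain ⟨m, hm, hmx⟩ := exists_min4 hx
  obtain ⟨r, hr⟩ := Nat.exists_eq_add_of_le h
  have h1 := (integrableOn_add_rpow_Ioi_of_lt (a := -2) (c := 0) (m := m) (by norm_num) (by linarith)).const_mul (m⁻¹ ^ r)
  refine Integrable.mono' h1 ((w3_cont hx).aestronglyMeasurable measurableSet_Ioi) ?_
  filter_upwards [ae_restrict_mem measurableSet_Ioi] with l hl
  have hl' : 0 < l := hl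
  have h0 : 0 < l + m := by linarith
  rw [Real.norm_of_nonneg (w3_nonneg hx hl'.le)]
  refine (w3_le hm hmx (r := r + 2) (by omega) hl'.le).trans ?_
  rw [pow_add, Real.rpow_neg h0.le, show ((l + m) ^ (2 : ℝ))⁻¹ = (l + m)⁻¹ ^ 2 by rw [Real.rpow_two, inv_pow]]
  gcongr
  linarith

theorem w3_tendsto (hx : ∀ j, 0 < x j) (h : a + 1 ≤ ∑ j, b j) : Tendsto (w3 x b a) atTop (𝓝 0) := by
  obtain ⟨m, hm, hmx⟩ := exists_min4 hx
  obtain ⟨r, hr⟩ := Nat.exists_eq_add_of_le h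
  have h1 : Tendsto (fun l : ℝ => ((l + m)⁻¹) ^ (r + 1)) atTop (𝓝 0) := by
    have := (tendsto_inv_atTop_zero.comp (tendsto_atTop_add_const_right atTop m tendsto_id)).pow (r + 1)
    simpa using this
  refine squeeze_zero' ?_ ?_ h1
  · filter_upwards [eventually_ge_atTop 0] with l hl using w3_nonneg hx hl
  · filter_upwards [eventually_ge_atTop 0] with l hl using w3_le hm hmx (by omega) hl

theorem w3_deriv0 (hx : ∀ j, 0 < x j) {l : ℝ} (hl : 0 ≤ l) :
    HasDerivAt (w3 x b 0) (-∑ j, (b j : ℝ) * w3 x (up3 b j) 0 l) l := by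
  have h1 : ∀ j, HasDerivAt (fun l : ℝ => ((l + x j)⁻¹) ^ b j) (-(b j : ℝ) * ((l + x j)⁻¹) ^ b j * (l + x j)⁻¹) l := by
    intro j
    have h0 : l + x j ≠ 0 := by have := hx j; positivity
    refine ((((hasDerivAt_id l).add_const (x j)).inv h0).pow (b j)).congr_deriv ?_
    rcases Nat.eq_zero_or_pos (b j) with h | h
    · simp [h]
    · obtain ⟨k, hk⟩ := Nat.exists_eq_add_of_le' h
      simp only [hk, Nat.add_sub_cancel, id, Pi.inv_apply, pow_succ]
      field_simp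
  have h2 := HasDerivAt.fun_finsetProd (u := Finset.univ) fun j _ => h1 j
  have e : w3 x b 0 = fun l => ∏ j, ((l + x j)⁻¹) ^ b j := by ext l; simp [w3]
  rw [e]
  refine h2.congr_deriv ?_
  rw [← Finset.sum_neg_distrib]
  refine Finset.sum_congr rfl fun j _ => ?_
  rw [w3_up, e]
  simp only [smul_eq_mul]
  rw [← Finset.mul_prod_erase Finset.univ _ (Finset.mem_univ j)]
  ring

theorem w3_deriv (hx : ∀ j, 0 < x j) {l : ℝ} (hl : 0 ≤ l) :
    HasDerivAt (w3 x b (a + 1)) (((a : ℝ) + 1) * w3 x b a l - ∑ j, (b j : ℝ) * w3 x (up3 b j) (a + 1) l) l := by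
  have e : ∀ b a l, w3 x b a l = l ^ a * w3 x b 0 l := fun b a l => by simp [w3]
  have h := (hasDerivAt_pow (a + 1) l).mul (w3_deriv0 (b := b) hx hl)
  have e' : w3 x b (a + 1) = (fun l => l ^ (a + 1)) * w3 x b 0 := by ext l; exact e _ _ _
  rw [e']
  refine h.congr_deriv (Eq.symm ?_)
  rw [e b a l, mul_neg, Finset.mul_sum, sub_eq_add_neg]
  congr 1
  · rw [Nat.add_sub_cancel]; push_cast; ring
  · congr 1
    exact Finset.sum_congr rfl fun j _ => by rw [e _ (a + 1)]; ring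

theorem J3_ibp (hx : ∀ j, 0 < x j) (h : a + 2 ≤ ∑ j, b j) :
    ((a : ℝ) + 1) * J3 x b a = ∑ j, (b j : ℝ) * J3 x (up3 b j) (a + 1) := by
  have i1 := (w3_int hx h).const_mul ((a : ℝ) + 1)
  have i2 : ∀ j, Integrable (fun l => (b j : ℝ) * w3 x (up3 b j) (a + 1) l) (volume.restrict (Ioi 0)) := fun j =>
    (w3_int hx (by rw [sum_up3]; omega)).const_mul _
  have i3 := integrable_finsetSum Finset.univ fun j _ => i2 j
  have := integral_Ioi_of_hasDerivAt_of_tendsto' (a := 0) (fun l hl => w3_deriv (b := b) (a := a) hx hl) (i1.sub i3)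
    (w3_tendsto hx (by omega))
  rw [integral_sub i1 i3, integral_finsetSum _ fun j _ => i2 j, integral_const_mul, w3_succ, zero_mul, sub_zero,
    sub_eq_zero] at this
  simpa only [integral_const_mul, J3] using this

theorem J3_split (hx : ∀ j, 0 < x j) (h : a + 2 ≤ ∑ j, b j) (j : Fin 4) :
    J3 x b a = J3 x (up3 b j) (a + 1) + x j * J3 x (up3 b j) a := by
  have i1 : IntegrableOn (w3 x (up3 b j) (a + 1)) (Ioi 0) := w3_int hx (by rw [sum_up3]; omega)
  have i2 : IntegrableOn (w3 x (up3 b j) a) (Ioi 0) := w3_int hx (by rw [sum_up3]; omega)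
  rw [J3, J3, J3, ← integral_const_mul, ← integral_add i1 (i2.const_mul _)]
  refine setIntegral_congr_fun measurableSet_Ioi fun l hl => ?_
  have : 0 < l := hl
  have := hx j
  simp only [w3_succ, w3_up]
  field_simp

theorem J3_pos (hx : ∀ j, 0 < x j) (h : a + 2 ≤ ∑ j, b j) : 0 < J3 x b a := by
  rw [J3, setIntegral_pos_iff_support_of_nonneg_ae _ (w3_int hx h)]
  · have : Function.support (w3 x b a) ∩ Ioi 0 = Ioi 0 :=
      inter_eq_right.2 fun l hl => (w3_pos hx hl).ne'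
    rw [this]
    simp
  · filter_upwards [ae_restrict_mem measurableSet_Ioi] with l hl using w3_nonneg hx (le_of_lt hl)

theorem J3_rec (hx : ∀ j, 0 < x j) (h : a + 2 ≤ ∑ j, b j) :
    ((∑ j, b j : ℕ) - ((a : ℝ) + 1)) * J3 x b a = ∑ j, (b j : ℝ) * (x j * J3 x (up3 b j) a) := by
  rw [sub_mul, J3_ibp hx h, Nat.cast_sum, Finset.sum_mul, ← Finset.sum_sub_distrib]
  refine Finset.sum_congr rfl fun j _ => ?_
  rw [J3_split hx h j]
  ring

/-- the ratio -/
def rho3 (b : Fin 4 → ℕ) (x : Fin 4 → ℝ) : ℝ := J3 x b 1 / J3 x b 0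

theorem rho3_pos (hx : ∀ j, 0 < x j) (h : 3 ≤ ∑ j, b j) : 0 < rho3 b x :=
  div_pos (J3_pos hx h) (J3_pos hx (by omega))

theorem rho3_rec (hx : ∀ j, 0 < x j) (h : 3 ≤ ∑ j, b j) :
    rho3 b x = ∑ j, (b j : ℝ) / ((∑ j, b j : ℕ) - 2) * ((x j)⁻¹ + (rho3 (up3 b j) x)⁻¹)⁻¹ := by
  have hc : (0 : ℝ) < (∑ j, b j : ℕ) - 2 := by
    have : (3 : ℝ) ≤ (∑ j, b j : ℕ) := by exact_mod_cast h
    linarith
  have h1 := J3_rec (a := 1) hx h
  have h0 : 0 < J3 x b 0 := J3_pos hx (by omega)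
  have e : J3 x b 1 = ∑ j, (b j : ℝ) * (x j * J3 x (up3 b j) 1) / ((∑ j, b j : ℕ) - 2) := by
    rw [← Finset.sum_div, ← h1, eq_div_iff hc.ne']
    push_cast
    ring
  rw [rho3, e, Finset.sum_div]
  refine Finset.sum_congr rfl fun j _ => ?_
  have p1 : 0 < J3 x (up3 b j) 1 := J3_pos hx (by rw [sum_up3]; omega)
  have p0 : 0 < J3 x (up3 b j) 0 := J3_pos hx (by rw [sum_up3]; omega)
  have := hx j
  rw [J3_split (a := 0) hx (by omega) j, rho3]
  field_simp

theorem J3_zero_eq (hx : ∀ j, 0 < x j) (h : 3 ≤ ∑ j, b j) :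
    J3 x b 0 = (∑ j, (b j : ℝ) / x j) * J3 x b 1 - ∑ j, (x j)⁻¹ * ((b j : ℝ) * J3 x (up3 b j) 2) := by
  have h1 := J3_ibp (a := 0) (b := b) hx (by omega)
  simp only [Nat.cast_zero, zero_add, one_mul] at h1
  rw [h1, Finset.sum_mul, ← Finset.sum_sub_distrib]
  refine Finset.sum_congr rfl fun j _ => ?_
  have := hx j
  rw [J3_split (a := 1) hx h j]
  field_simp
  ring

theorem harm_pos (hx : ∀ j, 0 < x j) {K : ℝ} (hK : ∀ j, x j ≤ K) :
    (∑ j, b j : ℕ) / K ≤ ∑ j, (b j : ℝ) / x j := by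
  rw [Nat.cast_sum, Finset.sum_div]
  exact Finset.sum_le_sum fun j _ => div_le_div_of_nonneg_left (by positivity) (hx j) (hK j)

theorem rho3_ge (hx : ∀ j, 0 < x j) (h : 3 ≤ ∑ j, b j) : (∑ j, (b j : ℝ) / x j)⁻¹ ≤ rho3 b x := by
  obtain ⟨K, hK⟩ := Finite.exists_max x
  have hc : (0 : ℝ) < (∑ j, b j : ℕ) := by exact_mod_cast (by omega : 0 < ∑ j, b j)
  have hH := (div_pos hc (hx K)).trans_le (harm_pos (b := b) hx hK)
  rw [rho3, le_div_iff₀ (J3_pos hx (by omega)), inv_mul_le_iff₀ hH, J3_zero_eq hx h]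
  refine sub_le_self _ (Finset.sum_nonneg fun j _ => ?_)
  have := hx j
  have p1 : 0 < J3 x (up3 b j) 2 := J3_pos hx (by rw [sum_up3]; omega)
  positivity

theorem rho3_le (hx : ∀ j, 0 < x j) (h : 3 ≤ ∑ j, b j) {K : ℝ} (hK : ∀ j, x j ≤ K) (hK' : ∀ j, (x j)⁻¹ ≤ K) :
    (1 - 2 * K ^ 2 / (∑ j, b j : ℕ)) * rho3 b x ≤ (∑ j, (b j : ℝ) / x j)⁻¹ := by
  have hc : (0 : ℝ) < (∑ j, b j : ℕ) := by exact_mod_cast (by omega : 0 < ∑ j, b j)
  have hK0 : 0 < K := (hx 0).trans_le (hK 0)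
  have h1 := harm_pos (b := b) hx hK
  have hH := (div_pos hc hK0).trans_le h1
  have p1 : 0 < J3 x b 1 := J3_pos hx h
  have h2 : ∑ j, (x j)⁻¹ * ((b j : ℝ) * J3 x (up3 b j) 2) ≤ K * (2 * J3 x b 1) := by
    have := J3_ibp (a := 1) (b := b) hx h
    rw [show ((1 : ℕ) : ℝ) + 1 = 2 by norm_num] at this
    rw [this, Finset.mul_sum]
    refine Finset.sum_le_sum fun j _ => mul_le_mul_of_nonneg_right (hK' j) ?_
    have p1 : 0 < J3 x (up3 b j) 2 := J3_pos hx (by rw [sum_up3]; omega)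
    positivity
  rw [rho3, ← mul_div_assoc, div_le_iff₀ (J3_pos hx (by omega)), le_inv_mul_iff₀ hH, J3_zero_eq hx h]
  generalize (∑ j, (b j : ℝ) / x j) = H at *
  generalize ((∑ j, b j : ℕ) : ℝ) = c at *
  have h3 : 2 * K ≤ H * (2 * K ^ 2 / c) := by
    rw [div_le_iff₀ hK0] at h1
    rw [← mul_div_assoc, le_div_iff₀ hc]
    nlinarith
  nlinarith

end Crest.Agent.R331
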