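import Crest.Agent.R331.Defs
import Crest.Agent.R331.M3a

/-! # Row 331, block M3 (b): `kap` preserves `Good`; value of `kap` on the variety `lm ξ₀ ξ₁ = lm ξ₂ ξ₃` -/

set_option autoImplicit false
noncomputable section
open MeasureTheory Set Filter Topology

namespace Crest.Agent.R331

variable {ι κ : Type*} [Fintype ι] [Fintype κ] {T : (κ → ℂ) →ₗ[ℂ] (ι → ℂ)} {c : ℝ}

theorem Good.mono_left {g g' : ι → ℝ} {h : κ → ℝ} (H : Good T c g h) (hg : ∀ i, g' i ≤ g i) : Good T c g' h :=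
  fun Y => (Finset.sum_le_sum fun i _ => mul_le_mul_of_nonneg_right (hg i) (by positivity)).trans (H Y)

theorem Good.mono_right {g : ι → ℝ} {h h' : κ → ℝ} (H : Good T c g h) (hc : 0 ≤ c) (hh : ∀ k, h k ≤ h' k) :
    Good T c g h' :=
  fun Y => (H Y).trans (mul_le_mul_of_nonneg_left
    (Finset.sum_le_sum fun k _ => mul_le_mul_of_nonneg_right (hh k) (by positivity)) hc)

theorem Good.sum {J : Type*} [Fintype J] {g : J → ι → ℝ} {h : J → κ → ℝ} (H : ∀ j, Good T c (g j) (h j))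
    {b : J → ℝ} (hb : ∀ j, 0 ≤ b j) : Good T c (fun i => ∑ j, b j * g j i) fun k => ∑ j, b j * h j k := by
  intro Y
  simp only [Finset.sum_mul, mul_assoc]
  rw [Finset.sum_comm, Finset.sum_comm (s := Finset.univ (α := κ)), Finset.mul_sum]
  refine Finset.sum_le_sum fun j _ => ?_
  rw [← Finset.mul_sum, ← Finset.mul_sum, mul_left_comm]
  exact mul_le_mul_of_nonneg_left (H j Y) (hb j)

theorem m3_cs {J : Type*} [Fintype J] (b g : J → ℝ) (z : J → ℂ) (hb : ∀ j, 0 ≤ b j) (hg : ∀ j, 0 < g j) :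
    (∑ j, b j / g j)⁻¹ * ‖∑ j, (b j : ℂ) * z j‖ ^ 2 ≤ ∑ j, b j * (g j * ‖z j‖ ^ 2) := by
  have h0 : 0 ≤ ∑ j, b j / g j := Finset.sum_nonneg fun j _ => div_nonneg (hb j) (hg j).le
  have h1 : 0 ≤ ∑ j, b j * (g j * ‖z j‖ ^ 2) :=
    Finset.sum_nonneg fun j _ => mul_nonneg (hb j) (mul_nonneg (hg j).le (by positivity))
  rcases h0.eq_or_lt with h | h
  · rw [← h, inv_zero, zero_mul]
    exact h1
  rw [inv_mul_le_iff₀ h]
  have h2 : ‖∑ j, (b j : ℂ) * z j‖ ≤ ∑ j, b j * ‖z j‖ := (norm_sum_le _ _).trans (Finset.sum_le_sum fun j _ => by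
    rw [norm_mul, Complex.norm_real, Real.norm_of_nonneg (hb j)])
  refine (pow_le_pow_left₀ (norm_nonneg _) h2 2).trans ?_
  refine Finset.sum_sq_le_sum_mul_sum_of_sq_le_mul _ (fun j _ => div_nonneg (hb j) (hg j).le)
    (fun j _ => mul_nonneg (hb j) (mul_nonneg (hg j).le (by positivity))) fun j _ => le_of_eq ?_
  have := hg j
  field_simp

/-- weighted parallel sums -/
theorem Good.harm {J : Type*} [Fintype J] {g : J → ι → ℝ} {h : J → κ → ℝ} (H : ∀ j, Good T c (g j) (h j))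
    (hg : ∀ j i, 0 < g j i) (hh : ∀ j k, 0 < h j k) {b : J → ℝ} (hb : ∀ j, 0 ≤ b j)
    (hb' : ∀ k, 0 < ∑ j, b j / h j k) :
    Good T c (fun i => (∑ j, b j / g j i)⁻¹) fun k => (∑ j, b j / h j k)⁻¹ := by
  intro Y
  let u : J → κ → ℂ := fun j k => (((h j k * ∑ j, b j / h j k)⁻¹ : ℝ) : ℂ) * Y k
  have e : Y = ∑ j, (b j : ℂ) • u j := by
    ext k
    simp only [Finset.sum_apply, Pi.smul_apply, smul_eq_mul, u, ← mul_assoc, ← Complex.ofReal_mul]
    rw [← Finset.sum_mul, ← Complex.ofReal_sum]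
    have : ∑ j, b j * (h j k * ∑ j, b j / h j k)⁻¹ = 1 := by
      simp only [mul_inv, ← mul_assoc, ← div_eq_mul_inv (b _)]
      rw [← Finset.sum_mul, mul_inv_cancel₀ (hb' k).ne']
    rw [this, Complex.ofReal_one, one_mul]
  have e2 : ∀ i, T Y i = ∑ j, (b j : ℂ) * T (u j) i := fun i => by
    conv_lhs => rw [e]
    simp only [map_sum, map_smul, Finset.sum_apply, Pi.smul_apply, smul_eq_mul]
  calc ∑ i, (∑ j, b j / g j i)⁻¹ * ‖T Y i‖ ^ 2 ≤ ∑ i, ∑ j, b j * (g j i * ‖T (u j) i‖ ^ 2) :=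
        Finset.sum_le_sum fun i _ => by rw [e2]; exact m3_cs b (g · i) _ hb (hg · i)
    _ = ∑ j, b j * ∑ i, g j i * ‖T (u j) i‖ ^ 2 := by rw [Finset.sum_comm]; simp only [Finset.mul_sum]
    _ ≤ ∑ j, b j * (c * ∑ k, h j k * ‖u j k‖ ^ 2) :=
        Finset.sum_le_sum fun j _ => mul_le_mul_of_nonneg_left (H j _) (hb j)
    _ = c * ∑ k, (∑ j, b j / h j k)⁻¹ * ‖Y k‖ ^ 2 := by
        simp only [mul_left_comm (b _) c]
        rw [← Finset.mul_sum]
        congr 1
        simp only [Finset.mul_sum]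
        rw [Finset.sum_comm]
        refine Finset.sum_congr rfl fun k _ => ?_
        have h1 := hb' k
        have : ∀ j, b j * (h j k * ‖u j k‖ ^ 2) = b j / h j k * (((∑ j, b j / h j k)⁻¹) ^ 2 * ‖Y k‖ ^ 2) := fun j => by
          have := hh j k
          simp only [u, norm_mul, Complex.norm_real, mul_pow, Real.norm_eq_abs, sq_abs]
          field_simp
        rw [Finset.sum_congr rfl fun j _ => this j, ← Finset.sum_mul]
        field_simp

theorem Good.par {g g' : ι → ℝ} {h h' : κ → ℝ} (H : Good T c g h) (H' : Good T c g' h')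
    (hg : ∀ i, 0 < g i) (hg' : ∀ i, 0 < g' i) (hh : ∀ k, 0 < h k) (hh' : ∀ k, 0 < h' k) :
    Good T c (fun i => ((g i)⁻¹ + (g' i)⁻¹)⁻¹) fun k => ((h k)⁻¹ + (h' k)⁻¹)⁻¹ := by
  have := Good.harm (J := Fin 2) (T := T) (c := c) (g := ![g, g']) (h := ![h, h']) (b := fun _ => 1)
    (fun j => by fin_cases j <;> assumption) (fun j i => by fin_cases j <;> simp [hg i, hg' i])
    (fun j i => by fin_cases j <;> simp [hh i, hh' i]) (fun _ => zero_le_one) fun k => by
      have := hh k; have := hh' k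
      simp only [Fin.sum_univ_two, Matrix.cons_val_zero, Matrix.cons_val_one]
      positivity
  simpa only [Fin.sum_univ_two, Matrix.cons_val_zero, Matrix.cons_val_one, one_div] using this

theorem rho3_good {X : ι → Fin 4 → ℝ} {Y : κ → Fin 4 → ℝ} (hc : 0 ≤ c) (hX : ∀ i j, 0 < X i j) (hY : ∀ k j, 0 < Y k j)
    (H : ∀ j, Good T c (fun i => X i j) fun k => Y k j) {b : Fin 4 → ℕ} (hb : 3 ≤ ∑ j, b j) :
    Good T c (fun i => rho3 b (X i)) fun k => rho3 b (Y k) := by
  obtain ⟨K, hK⟩ := Finite.exists_le fun p : ι × Fin 4 => max (X p.1 p.2) (X p.1 p.2)⁻¹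
  have key : ∀ (N : ℕ) (θ : ℝ), 0 < θ → θ = 1 - 2 * K ^ 2 / N → ∀ (r : ℕ) (b : Fin 4 → ℕ), 3 ≤ ∑ j, b j →
      ∑ j, b j + r = N → Good T c (fun i => θ * rho3 b (X i)) fun k => rho3 b (Y k) := by
    intro N θ hθ hθN r
    have hθ1 : θ ≤ 1 := by rw [hθN]; exact sub_le_self _ (by positivity)
    induction r with
    | zero =>
      intro b hb hN
      have hc' : (0 : ℝ) < (∑ j, b j : ℕ) := by exact_mod_cast (by omega : 0 < ∑ j, b j)
      refine ((Good.harm (b := fun j => (b j : ℝ)) H (fun j i => hX i j) (fun j k => hY k j) (fun _ => by positivity)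
        fun k => ?_).mono_left fun i => ?_).mono_right hc fun k => rho3_ge (hY k) hb
      · obtain ⟨j, hj⟩ := Finite.exists_max (Y k)
        exact (div_pos hc' (hY k j)).trans_le (harm_pos (hY k) hj)
      · rw [hθN, ← hN]
        exact rho3_le (hX i) hb (fun j => (le_max_left _ _).trans (hK (i, j))) fun j => (le_max_right _ _).trans (hK (i, j))
    | succ r ih =>
      intro b hb hN
      have h3 : ∀ j, 3 ≤ ∑ i, up3 b j i := fun j => by rw [sum_up3]; omega
      have hc' : (0 : ℝ) ≤ (∑ j, b j : ℕ) - 2 := by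
        have : (3 : ℝ) ≤ (∑ j, b j : ℕ) := by exact_mod_cast hb
        linarith
      have := Good.sum (b := fun j => (b j : ℝ) / ((∑ j, b j : ℕ) - 2)) (fun j =>
        ((H j).mono_left (g' := fun i => θ * X i j) fun i => mul_le_of_le_one_left (hX i j).le hθ1).par
          (ih (up3 b j) (h3 j) (by rw [sum_up3]; omega)) (fun i => mul_pos hθ (hX i j))
          (fun i => mul_pos hθ (rho3_pos (hX i) (h3 j))) (fun k => hY k j) fun k => rho3_pos (hY k) (h3 j))
        fun j => by positivity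
      convert this using 2 with i k
      · rw [rho3_rec (hX i) hb, Finset.mul_sum]
        refine Finset.sum_congr rfl fun j _ => ?_
        rw [mul_inv, mul_inv, ← mul_add, mul_inv, inv_inv, mul_left_comm]
      · exact rho3_rec (hY k) hb
  intro Z
  have h1 : Tendsto (fun N : ℕ => 1 - 2 * K ^ 2 / (N : ℝ)) atTop (𝓝 1) := by
    have := (tendsto_const_div_atTop_nhds_zero_nat (2 * K ^ 2)).const_sub 1
    rwa [sub_zero] at this
  have h2 := h1.mul_const (∑ i, rho3 b (X i) * ‖T Z i‖ ^ 2)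
  rw [one_mul] at h2
  refine le_of_tendsto h2 ?_
  filter_upwards [h1.eventually (lt_mem_nhds zero_lt_one), eventually_ge_atTop (∑ j, b j)] with N hN hN'
  have := key N _ hN rfl (N - ∑ j, b j) b hb (by omega) Z
  simpa only [Finset.mul_sum, mul_assoc] using this

theorem kap_eq (ξ : Fin 4 → ℝ) : kap ξ = rho3 (fun _ => 1) ξ := by
  simp only [kap, rho3, J3, w3, pow_one, pow_zero, Finset.prod_inv_distrib, div_eq_mul_inv]

theorem kap_pos' {ξ : Fin 4 → ℝ} (h : ∀ j, 0 < ξ j) : 0 < kap ξ := by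
  rw [kap_eq]
  exact rho3_pos h (by simp)

theorem kap_good' {X : ι → Fin 4 → ℝ} {Y : κ → Fin 4 → ℝ} (hc : 0 ≤ c) (hX : ∀ i j, 0 < X i j) (hY : ∀ k j, 0 < Y k j)
    (H : ∀ j, Good T c (fun i => X i j) fun k => Y k j) : Good T c (fun i => kap (X i)) fun k => kap (Y k) := by
  simp only [kap_eq]
  exact rho3_good hc hX hY H (by simp)

theorem integral_inv_lm {x y : ℝ} (hx : 0 < x) (hy : 0 < y) :
    ∫ l in Ioi (0 : ℝ), (l + x)⁻¹ * (l + y)⁻¹ = (lm x y)⁻¹ := by
  have hi : IntegrableOn (fun l : ℝ => (l + x)⁻¹ * (l + y)⁻¹) (Ioi 0) := by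
    have := w3_int (x := ![x, y, 1, 1]) (b := ![1, 1, 0, 0]) (a := 0) (fun j => by fin_cases j <;> simp [hx, hy])
      (by simp [Fin.sum_univ_four])
    convert this using 2 with l
    simp [w3, Fin.prod_univ_four, mul_comm]
  have ht : ∀ z : ℝ, Tendsto (fun l : ℝ => (l + z)⁻¹) atTop (𝓝 0) := fun z =>
    tendsto_inv_atTop_zero.comp (tendsto_atTop_add_const_right atTop z tendsto_id)
  by_cases h : x = y
  · subst h
    rw [integral_Ioi_of_hasDerivAt_of_tendsto' (f := fun l => -(l + x)⁻¹) (m := -0) (fun l hl => ?_) hi (ht x).neg]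
    · simp [lm]
    · have h0 : l + x ≠ 0 := (add_pos_of_nonneg_of_pos hl hx).ne'
      refine (((hasDerivAt_id l).add_const x).inv h0).neg.congr_deriv ?_
      simp only [id]
      field_simp
  · have hxy : x - y ≠ 0 := sub_ne_zero.2 h
    refine (integral_Ioi_of_hasDerivAt_of_tendsto' (f := fun l => (Real.log (l + y) - Real.log (l + x)) / (x - y))
      (m := 0) (fun l hl => ?_) hi ?_).trans ?_
    rotate_right
    · simp only [lm, if_neg h, zero_add, inv_div]
      ring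
    · have h0 : l + x ≠ 0 := (add_pos_of_nonneg_of_pos hl hx).ne'
      have h1 : l + y ≠ 0 := (add_pos_of_nonneg_of_pos hl hy).ne'
      refine (((((hasDerivAt_id l).add_const y).log h1).sub (((hasDerivAt_id l).add_const x).log h0)).div_const
        (x - y)).congr_deriv ?_
      simp only [id]
      field_simp
      ring
    · have h1 : Tendsto (fun l : ℝ => Real.log (1 + (y - x) * (l + x)⁻¹) / (x - y)) atTop (𝓝 0) := by
        have := ((((ht x).const_mul (y - x)).const_add 1).log (by simp)).div_const (x - y)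
        simpa using this
      refine h1.congr' ?_
      filter_upwards [eventually_ge_atTop 0] with l hl
      have h0 : l + x ≠ 0 := (add_pos_of_nonneg_of_pos hl hx).ne'
      have h1 : l + y ≠ 0 := (add_pos_of_nonneg_of_pos hl hy).ne'
      rw [← Real.log_div h1 h0]
      congr 2
      field_simp
      ring

/-- the value of `kap` on the variety -/
theorem kap_var' {ξ : Fin 4 → ℝ} (h : ∀ j, 0 < ξ j) (hl : lm (ξ 0) (ξ 1) = lm (ξ 2) (ξ 3)) :
    kap ξ * (ξ 0 + ξ 1 - ξ 2 - ξ 3) = ξ 2 * ξ 3 - ξ 0 * ξ 1 := by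
  have i0 : IntegrableOn (w3 ξ (fun _ => 1) 0) (Ioi 0) := w3_int h (by simp)
  have i1 : IntegrableOn (w3 ξ (fun _ => 1) 1) (Ioi 0) := w3_int h (by simp)
  have i2 : IntegrableOn (w3 ξ (fun _ => 1) 2) (Ioi 0) := w3_int h (by simp)
  have e : ∀ p q r s : Fin 4, (∀ l, ∏ j, (l + ξ j)⁻¹ = (l + ξ p)⁻¹ * (l + ξ q)⁻¹ * (l + ξ r)⁻¹ * (l + ξ s)⁻¹) →
      (lm (ξ r) (ξ s))⁻¹ = J3 ξ (fun _ => 1) 2 + (ξ p + ξ q) * J3 ξ (fun _ => 1) 1 + ξ p * ξ q * J3 ξ (fun _ => 1) 0 := by
    intro p q r s hp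
    rw [← integral_inv_lm (h r) (h s), J3, J3, J3, ← integral_const_mul, ← integral_const_mul,
      ← integral_add i2 (i1.const_mul _), ← integral_add (f := fun l => w3 ξ (fun _ => 1) 2 l +
        (ξ p + ξ q) * w3 ξ (fun _ => 1) 1 l) (i2.add (i1.const_mul _)) (i0.const_mul _)]
    refine setIntegral_congr_fun measurableSet_Ioi fun l hl => ?_
    have : 0 < l := hl
    have := h p; have := h q; have := h r; have := h s
    simp only [w3, pow_one, hp]
    field_simp
    ring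
  have e1 := e 0 1 2 3 fun l => by rw [Fin.prod_univ_four]
  have e2 := e 2 3 0 1 fun l => by rw [Fin.prod_univ_four]; ring
  have p0 : 0 < J3 ξ (fun _ => 1) 0 := J3_pos h (by simp)
  rw [hl, e1] at e2
  rw [kap_eq, rho3, div_mul_eq_mul_div, div_eq_iff p0.ne']
  linarith

end Crest.Agent.R331
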