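import Mathlib
import Crest.Agent.Lib.QEnt.Basic

/-!
Second-order expansion of a trace function `s ↦ tr g(H + s Y)` at `s = 0`, by the mixed-basis
identity `(q_m - l_k) ⟨e_k, f_m⟩ = s ⟨e_k, Y f_m⟩`.
-/

set_option autoImplicit false

namespace Crest.Agent.R331

open Matrix Filter Topology Crest.Agent.Lib.QEnt

variable {n : Type*} [Fintype n] [DecidableEq n]

theorem sec_uni {U V : Matrix n n ℂ} (hU : Uᴴ * U = 1) (hV : Vᴴ * V = 1) :
    (Uᴴ * V)ᴴ * (Uᴴ * V) = 1 := by
  simp only [conjTranspose_mul, conjTranspose_conjTranspose]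
  calc Vᴴ * U * (Uᴴ * V) = Vᴴ * (U * Uᴴ) * V := by simp only [Matrix.mul_assoc]
    _ = 1 := by rw [uni_comm hU, Matrix.mul_one, hV]

/-- Mixed-basis identity. -/
theorem sec_mixed {H U Y V : Matrix n n ℂ} {l q : n → ℝ} {s : ℝ} (h : IsDiag H U l)
    (h' : IsDiag (H + (s : ℂ) • Y) V q) (k m : n) :
    (Uᴴ * V) k m * ((q m - l k : ℝ) : ℂ) = (s : ℂ) * ((Uᴴ * Y * U) * (Uᴴ * V)) k m := by
  have e1 : Uᴴ * (H + (s : ℂ) • Y) * V = (Uᴴ * V) * diagonal (fun i => (q i : ℂ)) := by
    conv_lhs => rw [h'.eq]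
    calc Uᴴ * (V * diagonal (fun i => (q i : ℂ)) * Vᴴ) * V
        = (Uᴴ * V) * diagonal (fun i => (q i : ℂ)) * (Vᴴ * V) := by simp only [Matrix.mul_assoc]
      _ = _ := by rw [h'.uni, Matrix.mul_one]
  have e2 : Uᴴ * H * V = diagonal (fun i => (l i : ℂ)) * (Uᴴ * V) := by
    conv_lhs => rw [h.eq]
    calc Uᴴ * (U * diagonal (fun i => (l i : ℂ)) * Uᴴ) * V
        = (Uᴴ * U) * diagonal (fun i => (l i : ℂ)) * (Uᴴ * V) := by simp only [Matrix.mul_assoc]
      _ = _ := by rw [h.uni, Matrix.one_mul]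
  have e3 : (Uᴴ * Y * U) * (Uᴴ * V) = Uᴴ * Y * V := by
    calc (Uᴴ * Y * U) * (Uᴴ * V) = Uᴴ * Y * (U * Uᴴ) * V := by simp only [Matrix.mul_assoc]
      _ = _ := by rw [h.uni', Matrix.mul_one]
  rw [Matrix.mul_add, Matrix.add_mul, e2, Matrix.mul_smul, Matrix.smul_mul] at e1
  have := congrFun (congrFun e1 k) m
  rw [Matrix.add_apply, Matrix.smul_apply, Matrix.diagonal_mul, Matrix.mul_diagonal,
    smul_eq_mul] at this
  rw [e3]
  push_cast
  linear_combination -this

theorem sec_norm_le_one {W : Matrix n n ℂ} (hW : Wᴴ * W = 1) (j m : n) : ‖W j m‖ ≤ 1 := by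
  have h1 : Complex.normSq (W j m) ≤ 1 := by
    rw [← sum_normSq_col hW m]
    exact Finset.single_le_sum (f := fun i => Complex.normSq (W i m))
      (fun i _ => Complex.normSq_nonneg _) (Finset.mem_univ j)
  rw [Complex.normSq_eq_norm_sq] at h1
  nlinarith [norm_nonneg (W j m)]

theorem sec_mul_le {Z W : Matrix n n ℂ} (hW : Wᴴ * W = 1) (k m : n) :
    ‖(Z * W) k m‖ ≤ ∑ a, ∑ b, ‖Z a b‖ := by
  rw [Matrix.mul_apply]
  calc ‖∑ j, Z k j * W j m‖ ≤ ∑ j, ‖Z k j * W j m‖ := norm_sum_le _ _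
    _ ≤ ∑ j, ‖Z k j‖ := by
        refine Finset.sum_le_sum fun j _ => ?_
        rw [norm_mul]
        exact mul_le_of_le_one_right (norm_nonneg _) (sec_norm_le_one hW j m)
    _ ≤ _ := Finset.single_le_sum (f := fun a => ∑ b, ‖Z a b‖)
        (fun a _ => Finset.sum_nonneg fun b _ => norm_nonneg _) (Finset.mem_univ k)

/-- The exact remainder formula. -/
theorem sec_exact {H U Y V : Matrix n n ℂ} {l q : n → ℝ} {s : ℝ} (h : IsDiag H U l)
    (h' : IsDiag (H + (s : ℂ) • Y) V q) (g g1 : ℝ → ℝ) (ψ : ℝ → ℝ → ℝ)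
    (hg : ∀ k m, g (q m) - g (l k) - (q m - l k) * g1 (l k) = (q m - l k) ^ 2 * ψ (l k) (q m)) :
    trf g (H + (s : ℂ) • Y) - trf g H - s * ∑ k, g1 (l k) * dg U Y k
      = s ^ 2 * ∑ k, ∑ m, Complex.normSq (((Uᴴ * Y * U) * (Uᴴ * V)) k m) * ψ (l k) (q m) := by
  have hW := sec_uni h.uni h'.uni
  set W := Uᴴ * V with hWd
  have a1 : trf g (H + (s : ℂ) • Y) = ∑ k, ∑ m, Complex.normSq (W k m) * g (q m) := by
    rw [h'.trf, Finset.sum_comm]
    refine Finset.sum_congr rfl fun m _ => ?_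
    rw [← Finset.sum_mul, sum_normSq_col hW, one_mul]
  have a2 : trf g H = ∑ k, ∑ m, Complex.normSq (W k m) * g (l k) := by
    rw [h.trf]
    refine Finset.sum_congr rfl fun k _ => ?_
    rw [← Finset.sum_mul, sum_normSq_row hW, one_mul]
  have a3 : ∀ k, s * dg U Y k = ∑ m, Complex.normSq (W k m) * (q m - l k) := by
    intro k
    have b1 := h'.dg_eq U k
    rw [dg_add, dg_smul, h.dg_self] at b1
    have b2 : ∀ i, Complex.normSq ((Vᴴ * U) i k) = Complex.normSq (W k i) := by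
      intro i
      have : Vᴴ * U = Wᴴ := by rw [hWd, conjTranspose_mul, conjTranspose_conjTranspose]
      rw [this, conjTranspose_apply, Complex.star_def, Complex.normSq_conj]
    simp only [b2] at b1
    simp only [mul_sub, Finset.sum_sub_distrib, ← Finset.sum_mul, sum_normSq_row hW]
    linarith
  rw [a1, a2, Finset.mul_sum, Finset.mul_sum, ← Finset.sum_sub_distrib, ← Finset.sum_sub_distrib]
  refine Finset.sum_congr rfl fun k _ => ?_
  have : s * (g1 (l k) * dg U Y k) = ∑ m, Complex.normSq (W k m) * ((q m - l k) * g1 (l k)) := by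
    rw [mul_left_comm, a3 k, Finset.mul_sum]
    refine Finset.sum_congr rfl fun m _ => by ring
  rw [this, Finset.mul_sum, ← Finset.sum_sub_distrib, ← Finset.sum_sub_distrib]
  refine Finset.sum_congr rfl fun m _ => ?_
  have c1 := congrArg Complex.normSq (sec_mixed h h' k m)
  rw [map_mul, map_mul, Complex.normSq_ofReal, Complex.normSq_ofReal] at c1
  rw [← hWd] at c1
  have c2 := hg k m
  calc Complex.normSq (W k m) * g (q m) - Complex.normSq (W k m) * g (l k)
        - Complex.normSq (W k m) * ((q m - l k) * g1 (l k))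
      = Complex.normSq (W k m) * (g (q m) - g (l k) - (q m - l k) * g1 (l k)) := by ring
    _ = (Complex.normSq (W k m) * ((q m - l k) * (q m - l k))) * ψ (l k) (q m) := by
        rw [c2]; ring
    _ = _ := by rw [c1]; ring

/-- Comparison of the two quadratic forms. -/
theorem sec_diff {Z W : Matrix n n ℂ} (hW : Wᴴ * W = 1) (k : n) (a b : n → ℝ) {ε : ℝ}
    (hε : ∀ j m, ‖W j m‖ * |a m - b j| ≤ ε) :
    |∑ m, Complex.normSq ((Z * W) k m) * a m - ∑ j, Complex.normSq (Z k j) * b j|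
      ≤ (Fintype.card n) ^ 2 * (∑ a, ∑ b, ‖Z a b‖) ^ 2 * ε := by
  set C := ∑ a, ∑ b, ‖Z a b‖ with hC
  have hC0 : 0 ≤ C := Finset.sum_nonneg fun a _ => Finset.sum_nonneg fun b _ => norm_nonneg _
  set t : n → n → ℝ := fun j m => (Z k j * W j m * star ((Z * W) k m)).re with ht
  have e1 : ∀ m, Complex.normSq ((Z * W) k m) = ∑ j, t j m := by
    intro m
    simp only [ht]
    rw [← Complex.re_sum, ← Finset.sum_mul, ← Matrix.mul_apply, Complex.star_def,
      Complex.mul_conj, Complex.ofReal_re]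
  have e2 : ∀ j, Complex.normSq (Z k j) = ∑ m, t j m := by
    intro j
    simp only [ht]
    have h1 : Z = Z * W * Wᴴ := by rw [Matrix.mul_assoc, uni_comm hW, Matrix.mul_one]
    have h2 : star (Z k j) = ∑ m, W j m * star ((Z * W) k m) := by
      conv_lhs => rw [h1, Matrix.mul_apply, star_sum]
      refine Finset.sum_congr rfl fun m _ => ?_
      rw [conjTranspose_apply, star_mul', star_star, mul_comm]
    rw [← Complex.re_sum]
    simp only [mul_assoc]
    rw [← Finset.mul_sum, ← h2, Complex.star_def, Complex.mul_conj, Complex.ofReal_re]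
  have e3 : ∑ m, Complex.normSq ((Z * W) k m) * a m - ∑ j, Complex.normSq (Z k j) * b j
      = ∑ j, ∑ m, t j m * (a m - b j) := by
    simp only [e1, e2, Finset.sum_mul, mul_sub, Finset.sum_sub_distrib]
    rw [Finset.sum_comm]
  rw [e3]
  have hZ : ∀ j, ‖Z k j‖ ≤ C := by
    intro j
    have := sec_mul_le (Z := Z) (W := (1 : Matrix n n ℂ)) (by simp) k j
    rwa [Matrix.mul_one] at this
  have hb : ∀ j m, |t j m * (a m - b j)| ≤ C ^ 2 * ε := by
    intro j m
    have h1 : |t j m| ≤ C * ‖W j m‖ * C := by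
      refine (Complex.abs_re_le_norm _).trans ?_
      rw [norm_mul, norm_mul, norm_star]
      exact mul_le_mul (mul_le_mul_of_nonneg_right (hZ j) (norm_nonneg _)) (sec_mul_le hW k m)
        (norm_nonneg _) (mul_nonneg hC0 (norm_nonneg _))
    rw [abs_mul]
    calc |t j m| * |a m - b j| ≤ (C * ‖W j m‖ * C) * |a m - b j| :=
          mul_le_mul_of_nonneg_right h1 (abs_nonneg _)
      _ = C ^ 2 * (‖W j m‖ * |a m - b j|) := by ring
      _ ≤ C ^ 2 * ε := mul_le_mul_of_nonneg_left (hε j m) (sq_nonneg _)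
  calc |∑ j, ∑ m, t j m * (a m - b j)| ≤ ∑ j, |∑ m, t j m * (a m - b j)| :=
        Finset.abs_sum_le_sum_abs _ _
    _ ≤ ∑ _j : n, ∑ _m : n, C ^ 2 * ε := by
        refine Finset.sum_le_sum fun j _ => (Finset.abs_sum_le_sum_abs _ _).trans ?_
        exact Finset.sum_le_sum fun m _ => hb j m
    _ = _ := by simp only [Finset.sum_const, Finset.card_univ, nsmul_eq_mul]; ring

/-- Every eigenvalue of the perturbed matrix is close to an eigenvalue of `H`. -/
theorem sec_close {H U Y V : Matrix n n ℂ} {l q : n → ℝ} {s : ℝ} (h : IsDiag H U l)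
    (h' : IsDiag (H + (s : ℂ) • Y) V q) (m : n) :
    ∃ k, |q m - l k| ≤ |s| * (Fintype.card n * ∑ a, ∑ b, ‖(Uᴴ * Y * U) a b‖) := by
  have hW := sec_uni h.uni h'.uni
  set C := ∑ a, ∑ b, ‖(Uᴴ * Y * U) a b‖ with hC
  have hb : ∀ k, ‖(Uᴴ * V) k m‖ * |q m - l k| ≤ |s| * C := by
    intro k
    have := congrArg norm (sec_mixed h h' k m)
    rw [norm_mul, norm_mul, Complex.norm_real, Complex.norm_real, Real.norm_eq_abs,
      Real.norm_eq_abs] at this
    rw [this]
    exact mul_le_mul_of_nonneg_left (sec_mul_le hW k m) (abs_nonneg _)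
  have : Nonempty n := ⟨m⟩
  obtain ⟨k, -, hk⟩ := Finset.exists_min_image Finset.univ (fun k => |q m - l k|)
    Finset.univ_nonempty
  refine ⟨k, ?_⟩
  calc |q m - l k| = ∑ j, Complex.normSq ((Uᴴ * V) j m) * |q m - l k| := by
        rw [← Finset.sum_mul, sum_normSq_col hW, one_mul]
    _ ≤ ∑ _j : n, |s| * C := by
        refine Finset.sum_le_sum fun j _ => ?_
        refine le_trans ?_ (hb j)
        have h1 := sec_norm_le_one hW j m
        have h2 := norm_nonneg ((Uᴴ * V) j m)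
        rw [Complex.normSq_eq_norm_sq]
        exact mul_le_mul (by nlinarith) (hk j (Finset.mem_univ j)) (abs_nonneg _) h2
    _ = _ := by simp only [Finset.sum_const, Finset.card_univ, nsmul_eq_mul]; ring

/-- Second-order expansion of `s ↦ tr g(H + s Y)`. -/
theorem trf_second_order {H U Y : Matrix n n ℂ} {l : n → ℝ} (h : IsDiag H U l)
    (hY : Y.IsHermitian) (g g1 : ℝ → ℝ) (ψ : ℝ → ℝ → ℝ) {S : Set ℝ} (hS : IsOpen S)
    (hl : ∀ k, l k ∈ S)
    (hg : ∀ k, ∀ q ∈ S, g q - g (l k) - (q - l k) * g1 (l k) = (q - l k) ^ 2 * ψ (l k) q)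
    (hψ : ∀ k m, ContinuousAt (ψ (l k)) (l m)) :
    Tendsto (fun s : ℝ => (trf g (H + (s : ℂ) • Y) - trf g H - s * ∑ k, g1 (l k) * dg U Y k) / s ^ 2)
      (𝓝[≠] 0) (𝓝 (∑ k, ∑ m, Complex.normSq ((Uᴴ * Y * U) k m) * ψ (l k) (l m))) := by
  set C := ∑ a, ∑ b, ‖(Uᴴ * Y * U) a b‖ with hC
  have hC0 : 0 ≤ C := Finset.sum_nonneg fun a _ => Finset.sum_nonneg fun b _ => norm_nonneg _
  set N : ℝ := (Fintype.card n : ℝ) with hN
  have hN0 : 0 ≤ N := Nat.cast_nonneg _
  rw [Metric.tendsto_nhds]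
  intro ε₀ hε₀
  set ε := ε₀ / (N ^ 3 * C ^ 2 + 1) with hε
  have hεp : 0 < ε := div_pos hε₀ (by positivity)
  -- a radius that works for all pairs
  have hr : ∀ᶠ r in 𝓝[>] (0 : ℝ), ∀ k i, ∀ x, |x - l i| < r →
      x ∈ S ∧ |ψ (l k) x - ψ (l k) (l i)| ≤ min ε 1 := by
    simp only [eventually_all]
    have : ∀ k i, ∀ᶠ r in 𝓝[>] (0 : ℝ), ∀ x, |x - l i| < r →
        x ∈ S ∧ |ψ (l k) x - ψ (l k) (l i)| ≤ min ε 1 := by
      intro k i
      have h1 : ∀ᶠ x in 𝓝 (l i), x ∈ S ∧ |ψ (l k) x - ψ (l k) (l i)| ≤ min ε 1 := by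
        have h0 : ∀ᶠ x in 𝓝 (l i), x ∈ S := hS.mem_nhds (hl i)
        refine h0.and ?_
        have := Metric.tendsto_nhds.1 (hψ k i) (min ε 1) (lt_min hεp one_pos)
        exact this.mono fun x hx => by rw [Real.dist_eq] at hx; exact hx.le
      obtain ⟨r, hr0, hr⟩ := Metric.eventually_nhds_iff.1 h1
      have : ∀ᶠ r' in 𝓝[>] (0 : ℝ), r' < r :=
        nhdsWithin_le_nhds (Iio_mem_nhds hr0)
      exact this.mono fun r' hr' x hx => hr (by rw [Real.dist_eq]; exact hx.trans hr')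
    exact this
  obtain ⟨r, hr, hr0⟩ := (hr.and self_mem_nhdsWithin).exists
  have hr0 : 0 < r := hr0
  set B := 2 * (∑ k, ∑ i, |ψ (l k) (l i)|) + 1 with hB
  have hψB : ∀ k i, |ψ (l k) (l i)| ≤ ∑ k, ∑ i, |ψ (l k) (l i)| := by
    intro k i
    calc |ψ (l k) (l i)| ≤ ∑ i, |ψ (l k) (l i)| :=
          Finset.single_le_sum (f := fun i => |ψ (l k) (l i)|) (fun _ _ => abs_nonneg _)
            (Finset.mem_univ i)
      _ ≤ _ := Finset.single_le_sum (f := fun k => ∑ i, |ψ (l k) (l i)|)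
          (fun _ _ => Finset.sum_nonneg fun _ _ => abs_nonneg _) (Finset.mem_univ k)
  have hB0 : 0 < B := by
    have : 0 ≤ ∑ k, ∑ i, |ψ (l k) (l i)| :=
      Finset.sum_nonneg fun _ _ => Finset.sum_nonneg fun _ _ => abs_nonneg _
    linarith
  have t1 : Tendsto (fun s : ℝ => |s| * (N * C)) (𝓝[≠] 0) (𝓝 0) := by
    have : Tendsto (fun s : ℝ => |s| * (N * C)) (𝓝 0) (𝓝 (|0| * (N * C))) :=
      (continuous_abs.mul continuous_const).tendsto 0
    simp only [abs_zero, zero_mul] at this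
    exact this.mono_left nhdsWithin_le_nhds
  have t2 : Tendsto (fun s : ℝ => |s| * C * B) (𝓝[≠] 0) (𝓝 0) := by
    have : Tendsto (fun s : ℝ => |s| * C * B) (𝓝 0) (𝓝 (|0| * C * B)) :=
      ((continuous_abs.mul continuous_const).mul continuous_const).tendsto 0
    simp only [abs_zero, zero_mul] at this
    exact this.mono_left nhdsWithin_le_nhds
  filter_upwards [t1.eventually (Iio_mem_nhds hr0), t2.eventually (Iio_mem_nhds (mul_pos hεp hr0)),
    self_mem_nhdsWithin] with s hs1 hs2 hs0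
  have hs0 : s ≠ 0 := hs0
  have hσ : (H + (s : ℂ) • Y).IsHermitian := by
    refine h.isHermitian.add ?_
    unfold Matrix.IsHermitian
    rw [conjTranspose_smul, hY.eq, Complex.star_def, Complex.conj_ofReal]
  obtain ⟨V, q, h'⟩ := exists_isDiag hσ
  have hW := sec_uni h.uni h'.uni
  have hq : ∀ m, ∃ i, |q m - l i| < r := fun m => by
    obtain ⟨i, hi⟩ := sec_close h h' m
    exact ⟨i, hi.trans_lt hs1⟩
  have hqS : ∀ m, q m ∈ S := fun m => by
    obtain ⟨i, hi⟩ := hq m
    exact (hr i i _ hi).1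
  rw [sec_exact h h' g g1 ψ (fun k m => hg k _ (hqS m)), mul_div_cancel_left₀ _ (pow_ne_zero 2 hs0),
    Real.dist_eq, ← Finset.sum_sub_distrib]
  have key : ∀ k j m, ‖(Uᴴ * V) j m‖ * |ψ (l k) (q m) - ψ (l k) (l j)| ≤ ε := by
    intro k j m
    by_cases hc : |q m - l j| < r
    · calc _ ≤ 1 * ε := mul_le_mul (sec_norm_le_one hW j m) ((hr k j _ hc).2.trans (min_le_left _ _))
            (abs_nonneg _) zero_le_one
        _ = ε := one_mul _
    · rw [not_lt] at hc
      have hb : ‖(Uᴴ * V) j m‖ * |q m - l j| ≤ |s| * C := by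
        have := congrArg norm (sec_mixed h h' j m)
        rw [norm_mul, norm_mul, Complex.norm_real, Complex.norm_real, Real.norm_eq_abs,
          Real.norm_eq_abs] at this
        rw [this]
        exact mul_le_mul_of_nonneg_left (sec_mul_le hW j m) (abs_nonneg _)
      have hb2 : ‖(Uᴴ * V) j m‖ * r ≤ |s| * C :=
        (mul_le_mul_of_nonneg_left hc (norm_nonneg _)).trans hb
      obtain ⟨i, hi⟩ := hq m
      have h1 := (hr k i _ hi).2.trans (min_le_right _ _)
      have h2 : |ψ (l k) (q m) - ψ (l k) (l j)| ≤ B := by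
        have a1 := hψB k i
        have a2 := hψB k j
        rw [abs_le] at h1 a1 a2 ⊢
        constructor <;> linarith [h1.1, h1.2, a1.1, a1.2, a2.1, a2.2]
      have h3 : ‖(Uᴴ * V) j m‖ * B * r ≤ ε * r := by
        calc ‖(Uᴴ * V) j m‖ * B * r = (‖(Uᴴ * V) j m‖ * r) * B := by ring
          _ ≤ |s| * C * B := mul_le_mul_of_nonneg_right hb2 hB0.le
          _ ≤ ε * r := le_of_lt hs2
      exact (mul_le_mul_of_nonneg_left h2 (norm_nonneg _)).trans (le_of_mul_le_mul_right h3 hr0)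
  calc |∑ k, (∑ m, Complex.normSq (((Uᴴ * Y * U) * (Uᴴ * V)) k m) * ψ (l k) (q m)
          - ∑ m, Complex.normSq ((Uᴴ * Y * U) k m) * ψ (l k) (l m))|
      ≤ ∑ _k : n, N ^ 2 * C ^ 2 * ε := by
        refine (Finset.abs_sum_le_sum_abs _ _).trans (Finset.sum_le_sum fun k _ => ?_)
        exact sec_diff hW k _ _ (key k)
    _ = N ^ 3 * C ^ 2 * ε := by
        simp only [Finset.sum_const, Finset.card_univ, nsmul_eq_mul]; ring
    _ < (N ^ 3 * C ^ 2 + 1) * ε := by nlinarith
    _ = ε₀ := by rw [hε]; field_simp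

/-- Divided difference of `g1`, with the value `g2` on the diagonal. -/
noncomputable def divDiff (g1 g2 : ℝ → ℝ) (p q : ℝ) : ℝ :=
  if p = q then g2 p else (g1 p - g1 q) / (p - q)

theorem sec_taylor {g g1 : ℝ → ℝ} {c p : ℝ} {S : Set ℝ} (hS : IsOpen S) (hp : p ∈ S)
    (hg : ∀ x ∈ S, HasDerivAt g (g1 x) x) (hg1 : HasDerivAt g1 c p) :
    Tendsto (fun q => (g q - g p - (q - p) * g1 p) / (q - p) ^ 2) (𝓝[≠] p) (𝓝 (c / 2)) := by
  have hSn : ∀ᶠ x in 𝓝[≠] p, x ∈ S := nhdsWithin_le_nhds (hS.mem_nhds hp)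
  refine HasDerivAt.lhopital_zero_nhdsNE (f' := fun q => g1 q - g1 p) (g' := fun q => 2 * (q - p))
    ?_ ?_ ?_ ?_ ?_ ?_
  · refine hSn.mono fun x hx => ?_
    have := ((hg x hx).sub_const (g p)).fun_sub (((hasDerivAt_id' x).sub_const p).mul_const (g1 p))
    rwa [one_mul] at this
  · refine Eventually.of_forall fun x => ?_
    have := ((hasDerivAt_id' x).sub_const p).fun_pow 2
    refine this.congr_deriv ?_
    norm_num
  · filter_upwards [self_mem_nhdsWithin] with x hx
    exact mul_ne_zero two_ne_zero (sub_ne_zero.2 hx)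
  · have : ContinuousAt (fun q => g q - g p - (q - p) * g1 p) p :=
      ((hg p hp).continuousAt.sub continuousAt_const).sub
        ((continuousAt_id.sub continuousAt_const).mul continuousAt_const)
    have h2 := this.tendsto
    simp only [sub_self, zero_mul] at h2
    exact h2.mono_left nhdsWithin_le_nhds
  · have : ContinuousAt (fun q : ℝ => (q - p) ^ 2) p := by fun_prop
    have h2 := this.tendsto
    simp only [sub_self, ne_eq, OfNat.ofNat_ne_zero, not_false_eq_true, zero_pow] at h2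
    exact h2.mono_left nhdsWithin_le_nhds
  · have h1 := (hasDerivAt_iff_tendsto_slope.1 hg1).div_const 2
    refine h1.congr fun x => ?_
    rw [slope_def_field, div_div, mul_comm]

/-- Second-order expansion of `s ↦ tr g(H + s Y)` with the divided differences of `g'`. -/
theorem trf_second_order' {H U Y : Matrix n n ℂ} {l : n → ℝ} (h : IsDiag H U l)
    (hY : Y.IsHermitian) (g g1 g2 : ℝ → ℝ) {S : Set ℝ} (hS : IsOpen S) (hl : ∀ k, l k ∈ S)
    (hg : ∀ x ∈ S, HasDerivAt g (g1 x) x) (hg1 : ∀ k, HasDerivAt g1 (g2 (l k)) (l k)) :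
    Tendsto (fun s : ℝ => (trf g (H + (s : ℂ) • Y) - trf g H - s * ∑ k, g1 (l k) * dg U Y k) / s ^ 2)
      (𝓝[≠] 0)
      (𝓝 ((∑ k, ∑ m, Complex.normSq ((Uᴴ * Y * U) k m) * divDiff g1 g2 (l k) (l m)) / 2)) := by
  classical
  set ψ : ℝ → ℝ → ℝ := fun p q =>
    if q = p then g2 p / 2 else (g q - g p - (q - p) * g1 p) / (q - p) ^ 2 with hψ
  have main := trf_second_order h hY g g1 ψ hS hl ?_ ?_
  · have hsym : ∀ k m, Complex.normSq ((Uᴴ * Y * U) k m) = Complex.normSq ((Uᴴ * Y * U) m k) := by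
      intro k m
      have : (Uᴴ * Y * U)ᴴ = Uᴴ * Y * U := by
        rw [conjTranspose_mul, conjTranspose_mul, conjTranspose_conjTranspose, hY.eq,
          Matrix.mul_assoc]
      conv_lhs => rw [← this, conjTranspose_apply, Complex.star_def, Complex.normSq_conj]
    have hadd : ∀ p q, ψ p q + ψ q p = divDiff g1 g2 p q := by
      intro p q
      simp only [hψ, divDiff]
      by_cases hpq : p = q
      · subst hpq; simp
      · rw [if_neg hpq, if_neg (Ne.symm hpq), if_neg hpq]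
        have h1 : p - q ≠ 0 := sub_ne_zero.2 hpq
        have h2 : q - p ≠ 0 := sub_ne_zero.2 (Ne.symm hpq)
        field_simp
        ring
    have e : (∑ k, ∑ m, Complex.normSq ((Uᴴ * Y * U) k m) * divDiff g1 g2 (l k) (l m)) / 2
        = ∑ k, ∑ m, Complex.normSq ((Uᴴ * Y * U) k m) * ψ (l k) (l m) := by
      simp only [← hadd, mul_add, Finset.sum_add_distrib]
      have : ∑ k, ∑ m, Complex.normSq ((Uᴴ * Y * U) k m) * ψ (l m) (l k)
          = ∑ k, ∑ m, Complex.normSq ((Uᴴ * Y * U) k m) * ψ (l k) (l m) := by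
        rw [Finset.sum_comm]
        exact Finset.sum_congr rfl fun k _ => Finset.sum_congr rfl fun m _ => by rw [hsym]
      rw [this]; ring
    rw [e]; exact main
  · intro k q _
    simp only [hψ]
    by_cases hq : q = l k
    · rw [if_pos hq, hq]; simp
    · rw [if_neg hq]
      have h2 : q - l k ≠ 0 := sub_ne_zero.2 hq
      field_simp
  · intro k m
    by_cases hq : l m = l k
    · rw [hq, ← continuousWithinAt_compl_self, ContinuousWithinAt]
      have h0 : ψ (l k) (l k) = g2 (l k) / 2 := by simp [hψ]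
      rw [h0]
      refine (sec_taylor hS (hl k) hg (hg1 k)).congr' ?_
      filter_upwards [self_mem_nhdsWithin] with x hx
      have hx : x ≠ l k := hx
      simp only [hψ, if_neg hx]
    · have h1 : ContinuousAt (fun q => (g q - g (l k) - (q - l k) * g1 (l k)) / (q - l k) ^ 2)
          (l m) := by
        refine ContinuousAt.div ?_ (by fun_prop) (pow_ne_zero 2 (sub_ne_zero.2 hq))
        exact ((hg _ (hl m)).continuousAt.sub continuousAt_const).sub
          ((continuousAt_id.sub continuousAt_const).mul continuousAt_const)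
      refine h1.congr ?_
      filter_upwards [isOpen_ne.mem_nhds hq] with x hx
      simp only [hψ, if_neg hx]

/-- The case `g = exp`. -/
theorem trf_exp_second_order {H U Y : Matrix n n ℂ} {l : n → ℝ} (h : IsDiag H U l)
    (hY : Y.IsHermitian) :
    Tendsto (fun s : ℝ => (trf Real.exp (H + (s : ℂ) • Y) - trf Real.exp H
        - s * ∑ k, Real.exp (l k) * dg U Y k) / s ^ 2) (𝓝[≠] 0)
      (𝓝 ((∑ k, ∑ m, Complex.normSq ((Uᴴ * Y * U) k m)
        * divDiff Real.exp Real.exp (l k) (l m)) / 2)) :=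
  trf_second_order' h hY Real.exp Real.exp Real.exp isOpen_univ (fun _ => Set.mem_univ _)
    (fun x _ => Real.hasDerivAt_exp x) (fun _ => Real.hasDerivAt_exp _)

/-- The case `g = x log x` (minus the entropy) at a positive definite matrix. -/
theorem N_second_order {H U Y : Matrix n n ℂ} {l : n → ℝ} (h : IsDiag H U l)
    (hY : Y.IsHermitian) (hl : ∀ k, 0 < l k) :
    Tendsto (fun s : ℝ => (N (H + (s : ℂ) • Y) - N H
        - s * ∑ k, (Real.log (l k) + 1) * dg U Y k) / s ^ 2) (𝓝[≠] 0)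
      (𝓝 ((∑ k, ∑ m, Complex.normSq ((Uᴴ * Y * U) k m)
        * divDiff Real.log (fun x => x⁻¹) (l k) (l m)) / 2)) := by
  have := trf_second_order' h hY (fun u => u * Real.log u) (fun u => Real.log u + 1)
    (fun x => x⁻¹) isOpen_Ioi hl
    (fun x hx => Real.hasDerivAt_mul_log (ne_of_gt hx))
    (fun k => (Real.hasDerivAt_log (hl k).ne').add_const 1)
  have e : ∀ p q, divDiff (fun u => Real.log u + 1) (fun x => x⁻¹) p q
      = divDiff Real.log (fun x => x⁻¹) p q := by
    intro p q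
    simp only [divDiff, add_sub_add_right_eq_sub]
  simp only [e] at this
  exact this

end Crest.Agent.R331
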