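import Crest.Agent.R331.I.Basic
import Crest.Agent.R331.Anova

/-!
Row 331: exact algebra of one mode of the truncated beam splitter (`BS`): symmetry, image of the
lowering operator, commutators, the current identity, and the bounds on the boundary terms.
-/

set_option autoImplicit false
set_option linter.unusedSectionVars false
set_option linter.unusedSimpArgs false

noncomputable section

namespace Crest.Agent.R331

open Matrix Crest.MathPhysics.Bosonic Crest.Agent.Lib.QEnt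
open scoped ComplexOrder Kronecker

variable {α β γ δ : Type*} [Fintype α] [Fintype β] [Fintype γ] [Fintype δ]
  [DecidableEq α] [DecidableEq β] [DecidableEq γ] [DecidableEq δ]

/-- the image `rA c ⊗ 1 - rB 1 ⊗ c'` of the first input mode -/
def alp (c : Matrix γ γ ℂ) (c' : Matrix δ δ ℂ) (rA rB : ℝ) : Matrix (γ × δ) (γ × δ) ℂ :=
  (rA : ℂ) • (c ⊗ₖ (1 : Matrix δ δ ℂ)) - (rB : ℂ) • ((1 : Matrix γ γ ℂ) ⊗ₖ c')

/-- Heisenberg image of an output observable -/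
def hei (U : Matrix (γ × δ) (α × β) ℂ) (Y : Matrix γ γ ℂ) : Matrix (α × β) (α × β) ℂ :=
  Uᴴ * (Y ⊗ₖ (1 : Matrix δ δ ℂ)) * U

theorem sub_kron (X Y : Matrix α α ℂ) (Z : Matrix β β ℂ) : (X - Y) ⊗ₖ Z = X ⊗ₖ Z - Y ⊗ₖ Z := by
  ext p q; simp [kroneckerMap_apply, sub_mul]

theorem sw_mul_kron (U : Matrix (γ × δ) (α × β) ℂ) (X : Matrix α α ℂ) (Y : Matrix β β ℂ) :
    sw U * (Y ⊗ₖ X) = sw (U * (X ⊗ₖ Y)) := by
  ext p q
  simp only [sw, Matrix.mul_apply, submatrix_apply, id, kroneckerMap_apply, Fintype.sum_prod_type,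
    Prod.swap_prod_mk, Prod.fst_swap, Prod.snd_swap]
  rw [Finset.sum_comm]
  refine Finset.sum_congr rfl fun a _ => Finset.sum_congr rfl fun b _ => ?_
  ring

theorem mul_sw (Z : Matrix (γ × δ) (γ × δ) ℂ) (U : Matrix (γ × δ) (α × β) ℂ) :
    Z * sw U = sw (Z * U) := by
  ext p q
  simp only [sw, Matrix.mul_apply, submatrix_apply, id]

theorem sw_sw (U : Matrix (γ × δ) (α × β) ℂ) : sw (sw U) = U := by
  ext p q; simp [sw]

section bs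
variable {U : Matrix (γ × δ) (α × β) ℂ} {a QA : Matrix α α ℂ} {b QB : Matrix β β ℂ}
  {c : Matrix γ γ ℂ} {c' : Matrix δ δ ℂ} {rA rB : ℝ}

theorem alp_neg (c : Matrix γ γ ℂ) (c' : Matrix δ δ ℂ) (rA rB : ℝ) :
    (rB : ℂ) • (c ⊗ₖ (1 : Matrix δ δ ℂ)) - (rA : ℂ) • ((1 : Matrix γ γ ℂ) ⊗ₖ (-c')) =
      (rB : ℂ) • (c ⊗ₖ (1 : Matrix δ δ ℂ)) + (rA : ℂ) • ((1 : Matrix γ γ ℂ) ⊗ₖ c') := by
  ext p q; simp [kroneckerMap_apply]

theorem alp_neg' (c : Matrix γ γ ℂ) (c' : Matrix δ δ ℂ) (rA rB : ℝ) :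
    (rA : ℂ) • (c ⊗ₖ (1 : Matrix δ δ ℂ)) + (rB : ℂ) • ((1 : Matrix γ γ ℂ) ⊗ₖ (-c')) =
      (rA : ℂ) • (c ⊗ₖ (1 : Matrix δ δ ℂ)) - (rB : ℂ) • ((1 : Matrix γ γ ℂ) ⊗ₖ c') := by
  ext p q; simp [kroneckerMap_apply, sub_eq_add_neg]

/-- exchanging the inputs -/
theorem BS.exch (h : BS U a QA b QB c c' rA rB) : BS (sw U) b QB a QA c (-c') rB rA where
  iso := Anova.sw_iso h.iso
  sq := by rw [add_comm]; exact h.sq
  lowA := by rw [alp_neg, sw_mul_kron, mul_sw, h.lowB]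
  lowB := by rw [alp_neg', sw_mul_kron, mul_sw, h.lowA]
  upA := by rw [alp_neg, mul_sw, sw_mul_kron, sw_mul_kron, h.upB]
  upB := by rw [alp_neg', mul_sw, sw_mul_kron, sw_mul_kron, h.upA]
  QAh := h.QBh
  QAi := h.QBi
  QAa := h.QBb
  QBh := h.QAh
  QBi := h.QAi
  QBb := h.QAa

theorem BS.c_mul (h : BS U a QA b QB c c' rA rB) :
    (c ⊗ₖ (1 : Matrix δ δ ℂ)) * U =
      U * ((rA : ℂ) • (a ⊗ₖ (1 : Matrix β β ℂ)) + (rB : ℂ) • ((1 : Matrix α α ℂ) ⊗ₖ b)) := by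
  have hs : (rA : ℂ) ^ 2 + (rB : ℂ) ^ 2 = 1 := by exact_mod_cast h.sq
  rw [Matrix.mul_add, Matrix.mul_smul, Matrix.mul_smul, h.lowA, h.lowB]
  simp only [Matrix.sub_mul, Matrix.add_mul, Matrix.smul_mul]
  generalize (c ⊗ₖ (1 : Matrix δ δ ℂ)) * U = X
  generalize ((1 : Matrix γ γ ℂ) ⊗ₖ c') * U = Y
  ext p q
  simp only [Matrix.add_apply, Matrix.sub_apply, Matrix.smul_apply, smul_eq_mul]
  linear_combination (-X p q) * hs

theorem BS.hei_mul_c (h : BS U a QA b QB c c' rA rB) (Y : Matrix γ γ ℂ) :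
    hei U (Y * c) =
      hei U Y * ((rA : ℂ) • (a ⊗ₖ (1 : Matrix β β ℂ)) + (rB : ℂ) • ((1 : Matrix α α ℂ) ⊗ₖ b)) := by
  unfold hei
  rw [Matrix.mul_assoc _ U, ← h.c_mul]
  have : (Y * c) ⊗ₖ (1 : Matrix δ δ ℂ) = (Y ⊗ₖ (1 : Matrix δ δ ℂ)) * (c ⊗ₖ (1 : Matrix δ δ ℂ)) := by
    rw [← mul_kronecker_mul, Matrix.mul_one]
  rw [this]
  simp only [Matrix.mul_assoc]

theorem hei_conjTranspose (U : Matrix (γ × δ) (α × β) ℂ) (Y : Matrix γ γ ℂ) :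
    (hei U Y)ᴴ = hei U Yᴴ := by
  unfold hei
  simp only [conjTranspose_mul, conjTranspose_conjTranspose, conjTranspose_kronecker,
    conjTranspose_one, Matrix.mul_assoc]

theorem hei_one {U : Matrix (γ × δ) (α × β) ℂ} (hU : Uᴴ * U = 1) : hei U (1 : Matrix γ γ ℂ) = 1 := by
  unfold hei
  rw [one_kronecker_one, Matrix.mul_one, hU]

theorem hei_sub (U : Matrix (γ × δ) (α × β) ℂ) (Y Y' : Matrix γ γ ℂ) :
    hei U (Y - Y') = hei U Y - hei U Y' := by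
  unfold hei
  have : (Y - Y') ⊗ₖ (1 : Matrix δ δ ℂ) = Y ⊗ₖ (1 : Matrix δ δ ℂ) - Y' ⊗ₖ (1 : Matrix δ δ ℂ) := by
    ext p q; simp [kroneckerMap_apply, sub_mul]
  rw [this, Matrix.mul_sub, Matrix.sub_mul]

theorem BS.hei_c (h : BS U a QA b QB c c' rA rB) :
    hei U c = (rA : ℂ) • (a ⊗ₖ (1 : Matrix β β ℂ)) + (rB : ℂ) • ((1 : Matrix α α ℂ) ⊗ₖ b) := by
  have := h.hei_mul_c 1
  rwa [Matrix.one_mul, hei_one h.iso, Matrix.one_mul] at this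

theorem BS.hei_cH_mul (h : BS U a QA b QB c c' rA rB) (Y : Matrix γ γ ℂ) :
    hei U (cᴴ * Y) =
      ((rA : ℂ) • (aᴴ ⊗ₖ (1 : Matrix β β ℂ)) + (rB : ℂ) • ((1 : Matrix α α ℂ) ⊗ₖ bᴴ)) * hei U Y := by
  have := congrArg conjTranspose (h.hei_mul_c Yᴴ)
  rw [hei_conjTranspose, conjTranspose_mul, conjTranspose_mul, hei_conjTranspose,
    conjTranspose_conjTranspose] at this
  rw [this]
  simp only [conjTranspose_add, conjTranspose_smul, conjTranspose_kronecker, conjTranspose_one,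
    Complex.star_def, Complex.conj_ofReal]

theorem BS.adj_alp (h : BS U a QA b QB c c' rA rB) :
    Uᴴ * alp c c' rA rB =
      (a ⊗ₖ (1 : Matrix β β ℂ)) * Uᴴ + (QA ⊗ₖ (1 : Matrix β β ℂ)) * (Uᴴ * alp c c' rA rB) := by
  have h1 := congrArg conjTranspose h.upA
  simp only [conjTranspose_mul, conjTranspose_conjTranspose, conjTranspose_kronecker,
    conjTranspose_one, conjTranspose_sub (1 : Matrix α α ℂ), h.QAh] at h1
  rw [← h1]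
  have : (1 - QA) ⊗ₖ (1 : Matrix β β ℂ) = 1 - QA ⊗ₖ (1 : Matrix β β ℂ) := by
    rw [sub_kron, one_kronecker_one]
  rw [this, Matrix.sub_mul, Matrix.one_mul]
  unfold alp
  abel

/-- commutator with the lowering operator in the Heisenberg picture -/
theorem BS.hei_comm (h : BS U a QA b QB c c' rA rB) (L : Matrix γ γ ℂ) :
    (rA : ℂ) • hei U (c * L - L * c) =
      (a ⊗ₖ (1 : Matrix β β ℂ)) * hei U L - hei U L * (a ⊗ₖ (1 : Matrix β β ℂ)) +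
        (QA ⊗ₖ (1 : Matrix β β ℂ)) * (Uᴴ * alp c c' rA rB * (L ⊗ₖ (1 : Matrix δ δ ℂ)) * U) := by
  have e1 : (rA : ℂ) • ((c * L - L * c) ⊗ₖ (1 : Matrix δ δ ℂ)) =
      alp c c' rA rB * (L ⊗ₖ (1 : Matrix δ δ ℂ)) - (L ⊗ₖ (1 : Matrix δ δ ℂ)) * alp c c' rA rB := by
    unfold alp
    simp only [Matrix.sub_mul, Matrix.mul_sub, Matrix.smul_mul, Matrix.mul_smul,
      ← mul_kronecker_mul, Matrix.mul_one, Matrix.one_mul]
    ext p q; simp [kroneckerMap_apply, sub_mul, mul_sub]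
  have e2 : alp c c' rA rB * U = U * (a ⊗ₖ (1 : Matrix β β ℂ)) := h.lowA.symm
  unfold hei
  rw [← Matrix.smul_mul, ← Matrix.mul_smul, e1, Matrix.mul_sub, Matrix.sub_mul,
    ← Matrix.mul_assoc Uᴴ (alp c c' rA rB)]
  have e3 : Uᴴ * (L ⊗ₖ (1 : Matrix δ δ ℂ) * alp c c' rA rB) * U =
      Uᴴ * (L ⊗ₖ (1 : Matrix δ δ ℂ)) * U * (a ⊗ₖ (1 : Matrix β β ℂ)) := by
    simp only [Matrix.mul_assoc, e2]
  rw [e3]
  conv_lhs => rw [h.adj_alp]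
  simp only [Matrix.add_mul, Matrix.mul_assoc]
  abel

/-- the boundary operator `Uᴴ α (L ⊗ 1) U` -/
def bdy (U : Matrix (γ × δ) (α × β) ℂ) (c : Matrix γ γ ℂ) (c' : Matrix δ δ ℂ) (rA rB : ℝ)
    (L : Matrix γ γ ℂ) : Matrix (α × β) (α × β) ℂ :=
  Uᴴ * alp c c' rA rB * (L ⊗ₖ (1 : Matrix δ δ ℂ)) * U

theorem adj_eq (U : Matrix (γ × δ) (α × β) ℂ) (ρB : Matrix β β ℂ) (Y : Matrix γ γ ℂ) :
    adj U ρB Y = ptr2 (((1 : Matrix α α ℂ) ⊗ₖ ρB) * hei U Y) := rfl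

theorem kron_swap_mul (X : Matrix α α ℂ) (Y : Matrix β β ℂ) (M : Matrix (α × β) (α × β) ℂ) :
    ((1 : Matrix α α ℂ) ⊗ₖ Y) * ((X ⊗ₖ (1 : Matrix β β ℂ)) * M) =
      (X ⊗ₖ (1 : Matrix β β ℂ)) * (((1 : Matrix α α ℂ) ⊗ₖ Y) * M) := by
  simp only [← Matrix.mul_assoc, ← mul_kronecker_mul, Matrix.mul_one, Matrix.one_mul]

theorem BS.adj_c (h : BS U a QA b QB c c' rA rB) {ρB : Matrix β β ℂ} (hB : ρB.trace = 1) :
    adj U ρB c = (rA : ℂ) • a + ((rB : ℂ) * (ρB * b).trace) • (1 : Matrix α α ℂ) := by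
  rw [adj_eq, h.hei_c, Matrix.mul_add, Matrix.mul_smul, Matrix.mul_smul, ← mul_kronecker_mul,
    ← mul_kronecker_mul, ptr2_add, ptr2_smul, ptr2_smul, ptr2_kron, ptr2_kron]
  simp [hB, smul_smul]

theorem BS.trace_out_c (h : BS U a QA b QB c c' rA rB) {ρA : Matrix α α ℂ} {ρB : Matrix β β ℂ}
    (hA : ρA.trace = 1) (hB : ρB.trace = 1) :
    (out U ρA ρB * c).trace = (rA : ℂ) * (ρA * a).trace + (rB : ℂ) * (ρB * b).trace := by
  rw [← trace_mul_adj, h.adj_c hB]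
  simp [Matrix.mul_add, hA]

theorem BS.adj_comm (h : BS U a QA b QB c c' rA rB) (ρB : Matrix β β ℂ) (L : Matrix γ γ ℂ) :
    (rA : ℂ) • adj U ρB (c * L - L * c) =
      a * adj U ρB L - adj U ρB L * a +
        QA * ptr2 (((1 : Matrix α α ℂ) ⊗ₖ ρB) * bdy U c c' rA rB L) := by
  rw [adj_eq, adj_eq, ← ptr2_smul, ← Matrix.mul_smul, h.hei_comm, Matrix.mul_add, Matrix.mul_sub,
    ptr2_add, ptr2_sub, kron_swap_mul, kron_swap_mul, ptr2_mul_left, ptr2_mul_left,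
    ← Matrix.mul_assoc, ptr2_mul_right]
  rfl

theorem trace_mul_ptr2_kron (X : Matrix α α ℂ) (Y : Matrix β β ℂ) (M : Matrix (α × β) (α × β) ℂ) :
    (X * ptr2 (((1 : Matrix α α ℂ) ⊗ₖ Y) * M)).trace = ((X ⊗ₖ Y) * M).trace := by
  rw [trace_mul_ptr2, ← Matrix.mul_assoc, ← mul_kronecker_mul, Matrix.mul_one, Matrix.one_mul]

theorem df_conjTranspose {ρ : Matrix α α ℂ} (hρ : ρ.IsHermitian) (t : ℝ) (a : Matrix α α ℂ) :
    (df ρ t a)ᴴ = (t : ℂ) • (aᴴ * ρ) - ((t + 1 : ℝ) : ℂ) • (ρ * aᴴ) := by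
  unfold df
  simp only [conjTranspose_sub, conjTranspose_smul, conjTranspose_mul, hρ.eq, Complex.star_def,
    Complex.conj_ofReal]

theorem trace_dfH_mul {ρ : Matrix α α ℂ} (hρ : ρ.IsHermitian) (t : ℝ) (a Y : Matrix α α ℂ) :
    ((df ρ t a)ᴴ * Y).trace =
      (t : ℂ) * (ρ * (Y * aᴴ - aᴴ * Y)).trace - (ρ * (aᴴ * Y)).trace := by
  rw [df_conjTranspose hρ]
  simp only [Matrix.sub_mul, Matrix.smul_mul, trace_sub, trace_smul, Matrix.mul_sub, smul_eq_mul,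
    Matrix.mul_assoc]
  rw [trace_mul_comm aᴴ (ρ * Y), Matrix.mul_assoc]
  push_cast; ring

/-- one half of the current identity -/
theorem BS.cur_half (h : BS U a QA b QB c c' rA rB) (ρA : Matrix α α ℂ) (ρB : Matrix β β ℂ)
    (Y : Matrix γ γ ℂ) :
    (rA : ℂ) * (out U ρA ρB * (Y * cᴴ - cᴴ * Y)).trace =
      (ρA * (adj U ρB Y * aᴴ - aᴴ * adj U ρB Y)).trace +
        ((ρA ⊗ₖ ρB) * ((bdy U c c' rA rB Yᴴ)ᴴ * (QA ⊗ₖ (1 : Matrix β β ℂ)))).trace := by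
  have h1 := congrArg conjTranspose (h.hei_comm Yᴴ)
  simp only [conjTranspose_smul, hei_conjTranspose, conjTranspose_add, conjTranspose_sub,
    conjTranspose_mul (a ⊗ₖ (1 : Matrix β β ℂ)), conjTranspose_mul (hei U Yᴴ),
    conjTranspose_mul (QA ⊗ₖ (1 : Matrix β β ℂ)), conjTranspose_mul c, conjTranspose_mul Yᴴ,
    conjTranspose_kronecker, conjTranspose_one, conjTranspose_conjTranspose, h.QAh,
    Complex.star_def, Complex.conj_ofReal] at h1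
  rw [trace_out_mul, ← smul_eq_mul, ← trace_smul, ← Matrix.mul_smul]
  change ((ρA ⊗ₖ ρB) * ((rA : ℂ) • hei U (Y * cᴴ - cᴴ * Y))).trace = _
  rw [h1, Matrix.mul_add, trace_add]
  congr 1
  rw [adj_eq, ← ptr2_mul_right, ← ptr2_mul_left, ← ptr2_sub, ← kron_swap_mul, Matrix.mul_assoc,
    ← Matrix.mul_sub, trace_mul_ptr2_kron]

theorem BS.trace_out_cH (h : BS U a QA b QB c c' rA rB) (ρA : Matrix α α ℂ) (ρB : Matrix β β ℂ)
    (Y : Matrix γ γ ℂ) :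
    (out U ρA ρB * (cᴴ * Y)).trace =
      (rA : ℂ) * (ρA * (aᴴ * adj U ρB Y)).trace + (rB : ℂ) * (ρB * (bᴴ * adj (sw U) ρA Y)).trace := by
  rw [← Matrix.mul_assoc ρA, ← Matrix.mul_assoc ρB, trace_mul_adj, trace_mul_adj, out_sw,
    trace_out_mul, trace_out_mul, trace_out_mul]
  change ((ρA ⊗ₖ ρB) * hei U (cᴴ * Y)).trace =
    (rA : ℂ) * (((ρA * aᴴ) ⊗ₖ ρB) * hei U Y).trace + (rB : ℂ) * ((ρA ⊗ₖ (ρB * bᴴ)) * hei U Y).trace
  rw [h.hei_cH_mul, ← Matrix.mul_assoc, Matrix.mul_add, Matrix.mul_smul, Matrix.mul_smul,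
    ← mul_kronecker_mul, ← mul_kronecker_mul, Matrix.add_mul, Matrix.smul_mul, Matrix.smul_mul,
    trace_add, trace_smul, trace_smul]
  simp only [Matrix.mul_one, smul_eq_mul]

/-- boundary term of the current identity -/
def bcur (U : Matrix (γ × δ) (α × β) ℂ) (QA : Matrix α α ℂ) (c : Matrix γ γ ℂ) (c' : Matrix δ δ ℂ)
    (rA rB : ℝ) (ρA : Matrix α α ℂ) (ρB : Matrix β β ℂ) (Y : Matrix γ γ ℂ) : ℂ :=
  ((ρA ⊗ₖ ρB) * ((bdy U c c' rA rB Yᴴ)ᴴ * (QA ⊗ₖ (1 : Matrix β β ℂ)))).trace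

/-- the current identity -/
theorem BS.current (h : BS U a QA b QB c c' rA rB) {ρA : Matrix α α ℂ} {ρB : Matrix β β ℂ}
    (hA : ρA.PosSemidef) (hB : ρB.PosSemidef) (tA tB : ℝ) (Y : Matrix γ γ ℂ) :
    ((df (out U ρA ρB) (rA ^ 2 * tA + rB ^ 2 * tB) c)ᴴ * Y).trace =
      (rA : ℂ) * ((df ρA tA a)ᴴ * adj U ρB Y).trace +
        (rB : ℂ) * ((df ρB tB b)ᴴ * adj (sw U) ρA Y).trace +
        (rA * tA : ℂ) * bcur U QA c c' rA rB ρA ρB Y +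
        (rB * tB : ℂ) * bcur (sw U) QB c (-c') rB rA ρB ρA Y := by
  have h1 := h.cur_half ρA ρB Y
  have h2 := h.exch.cur_half ρB ρA Y
  rw [out_sw] at h2
  rw [trace_dfH_mul (out_posSemidef U hA hB).1, trace_dfH_mul hA.1, trace_dfH_mul hB.1,
    h.trace_out_cH]
  unfold bcur
  push_cast
  linear_combination (rA * tA : ℂ) * h1 + (rB * tB : ℂ) * h2

/-! ### bounds -/

theorem norm_trace_mul_Q_le {ρA Q : Matrix α α ℂ} {ρB : Matrix β β ℂ} (hA : Dens ρA) (hB : Dens ρB)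
    (hQh : Qᴴ = Q) (hQi : Q * Q = Q) {X : Matrix (α × β) (α × β) ℂ} {κ : ℝ} (hκ : 0 ≤ κ)
    (hX : Bd X κ) :
    ‖((ρA ⊗ₖ ρB) * (Xᴴ * (Q ⊗ₖ (1 : Matrix β β ℂ)))).trace‖ ≤
      κ * Real.sqrt (ρA * Q).trace.re := by
  have hw : (ρA ⊗ₖ ρB).PosSemidef := hA.1.kronecker hB.1
  have h1 := cs_state hw X (Q ⊗ₖ (1 : Matrix β β ℂ))
  have h2 := Bd.trace_le hw hX
  have e1 : (ρA ⊗ₖ ρB).trace = 1 := by rw [trace_kronecker, hA.2, hB.2, one_mul]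
  have e2 : ((ρA ⊗ₖ ρB) * ((Q ⊗ₖ (1 : Matrix β β ℂ))ᴴ * (Q ⊗ₖ (1 : Matrix β β ℂ)))).trace =
      (ρA * Q).trace := by
    rw [conjTranspose_kronecker, hQh, conjTranspose_one, ← mul_kronecker_mul, ← mul_kronecker_mul,
      hQi, trace_kronecker]
    simp [hB.2]
  rw [e1] at h2
  rw [e2] at h1
  have hq : 0 ≤ (ρA * Q).trace.re := by
    have := Anova.trace_mul_sq_re_nonneg hA.1 Q
    rwa [hQh, hQi] at this
  simp only [Complex.one_re, mul_one] at h2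
  refine (sq_le_sq₀ (norm_nonneg _) (by positivity)).1 ?_
  rw [mul_pow, Real.sq_sqrt hq]
  exact h1.trans (mul_le_mul_of_nonneg_right h2 hq)

theorem norm_trace_Q_mul_le {ρA Q : Matrix α α ℂ} {ρB : Matrix β β ℂ} (hA : Dens ρA) (hB : Dens ρB)
    (hQh : Qᴴ = Q) (hQi : Q * Q = Q) {X : Matrix (α × β) (α × β) ℂ} {κ : ℝ} (hκ : 0 ≤ κ)
    (hX : Bd X κ) :
    ‖((ρA ⊗ₖ ρB) * ((Q ⊗ₖ (1 : Matrix β β ℂ)) * X)).trace‖ ≤
      κ * Real.sqrt (ρA * Q).trace.re := by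
  have hw : (ρA ⊗ₖ ρB).PosSemidef := hA.1.kronecker hB.1
  have h := norm_trace_mul_Q_le hA hB hQh hQi hκ hX
  have e : ((ρA ⊗ₖ ρB) * ((Q ⊗ₖ (1 : Matrix β β ℂ)) * X)).trace =
      star ((ρA ⊗ₖ ρB) * (Xᴴ * (Q ⊗ₖ (1 : Matrix β β ℂ)))).trace := by
    rw [← trace_conjTranspose, conjTranspose_mul, conjTranspose_mul, hw.1.eq,
      conjTranspose_kronecker, hQh, conjTranspose_one, conjTranspose_conjTranspose, trace_mul_comm]
  rw [e, norm_star]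
  exact h

theorem BS.abs_le_one (h : BS U a QA b QB c c' rA rB) : |rA| ≤ 1 ∧ |rB| ≤ 1 := by
  have := h.sq
  constructor <;> rw [← sq_le_one_iff_abs_le_one] <;> nlinarith [sq_nonneg rA, sq_nonneg rB]

theorem Bd.neg {X : Matrix α β ℂ} {κ : ℝ} (hX : Bd X κ) : Bd (-X) κ := by
  unfold Bd at hX ⊢
  simpa using hX

theorem Bd.sub {X Y : Matrix α β ℂ} {κ μ : ℝ} (hκ : 0 ≤ κ) (hμ : 0 ≤ μ) (hX : Bd X κ)
    (hY : Bd Y μ) : Bd (X - Y) (κ + μ) := by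
  rw [sub_eq_add_neg]; exact Bd.add hκ hμ hX hY.neg

theorem BS.bd_alp (h : BS U a QA b QB c c' rA rB) {κ : ℝ} (hκ : 0 ≤ κ) (hc : Bd c κ)
    (hc' : Bd c' κ) : Bd (alp c c' rA rB) (2 * κ) := by
  have h1 : Bd ((rA : ℂ) • (c ⊗ₖ (1 : Matrix δ δ ℂ))) κ := by
    refine Bd.mono (by positivity) ?_ (Bd.smul _ hc.kron_one)
    rw [Complex.norm_real, Real.norm_eq_abs]
    nlinarith [h.abs_le_one.1, abs_nonneg rA]
  have h2 : Bd ((rB : ℂ) • ((1 : Matrix γ γ ℂ) ⊗ₖ c')) κ := by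
    refine Bd.mono (by positivity) ?_ (Bd.smul _ hc'.one_kron)
    rw [Complex.norm_real, Real.norm_eq_abs]
    nlinarith [h.abs_le_one.2, abs_nonneg rB]
  rw [two_mul]
  exact Bd.sub hκ hκ h1 h2

theorem BS.bd_bdy (h : BS U a QA b QB c c' rA rB) {κ : ℝ} (hκ : 0 ≤ κ) (hc : Bd c κ)
    (hc' : Bd c' κ) {L : Matrix γ γ ℂ} {l : ℝ} (hL : Bd L l) :
    Bd (bdy U c c' rA rB L) (2 * κ * l) := by
  have := (((Bd.of_iso h.iso).conjTranspose.mul (h.bd_alp hκ hc hc')).mul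
    (hL.kron_one (β := δ))).mul (Bd.of_iso h.iso)
  simpa [bdy] using this

theorem BS.norm_bcur_le (h : BS U a QA b QB c c' rA rB) {ρA : Matrix α α ℂ} {ρB : Matrix β β ℂ}
    (hA : Dens ρA) (hB : Dens ρB) {κ : ℝ} (hκ : 0 ≤ κ) (hc : Bd c κ) (hc' : Bd c' κ)
    {Y : Matrix γ γ ℂ} {l : ℝ} (hl : 0 ≤ l) (hY : Bd Y l) :
    ‖bcur U QA c c' rA rB ρA ρB Y‖ ≤ 2 * κ * l * Real.sqrt (ρA * QA).trace.re :=
  norm_trace_mul_Q_le hA hB h.QAh h.QAi (by positivity) (h.bd_bdy hκ hc hc' hY.conjTranspose)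

end bs

end Crest.Agent.R331

end
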